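import Crest.Agent.DW.Defs

set_option autoImplicit false

namespace Crest.Agent.DW.FibAux

section Defs
variable {R : Type*} [CommRing R]

def qF (z s m l : R) : R := 1 - (1 - 2*z)*s^2 - m*l
def fF (z s m l : R) : R :=
  m*(1 - z*qF z s m l) - 2*(qF z s m l)*s - s*(qF z s m l)^2 + 4*z*s*(qF z s m l)^2
    - 2*l*(qF z s m l)^3
def aF (z s m l : R) : R := -(1 - 2*z)*s - 2*(qF z s m l)*l
def bF (z s m l : R) : R := m - 2*(qF z s m l)*s
def X1F (z s m l : R) : R := (aF z s m l)*(1 + z*qF z s m l) - (bF z s m l)*z^2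
def X2F (z s m l : R) : R := l*(qF z s m l)^2 + s*(1 - z*qF z s m l)
def yF (z s m l : R) : R := -l*(1 + z*qF z s m l) + s*z^2
def pF (z s m l : R) : R := qF z s m l - 1
def AF (z s m l : R) : R := (X2F z s m l)*(pF z s m l - 1) + (fF z s m l)*z
def BF (z s m l : R) : R := (X1F z s m l)*(pF z s m l + 1) - (fF z s m l)*z

/-- the relation -/
def relF (x z X1 X2 y q : R) : R :=
  z^2*x + (1 - z*q)*X1 + (1 - 2*z)*((1 + z*q)*X2 + q^2*y) + 2*q*(z^2*X2 - (1 - z*q)*y)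

def sC (z X2 y q : R) : R := (1 + z*q)*X2 + q^2*y
def lC (z X2 y q : R) : R := z^2*X2 - (1 - z*q)*y
def mC (x z X1 X2 y q : R) : R := (1 + z*q)*x - q^2*X1 + 2*q*sC z X2 y q

theorem core_q (x z X1 X2 y q : R) (hq : q = 1 + X1*X2 + x*y) (hR : relF x z X1 X2 y q = 0) :
    qF z (sC z X2 y q) (mC x z X1 X2 y q) (lC z X2 y q) = q := by
  simp only [relF] at hR
  simp only [qF, sC, mC, lC]
  linear_combination (-((1 + z*q)*X2 + q^2*y))*hR - hq

theorem core_f (x z X1 X2 y q : R) (hq : q = 1 + X1*X2 + x*y) (hR : relF x z X1 X2 y q = 0) :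
    fF z (sC z X2 y q) (mC x z X1 X2 y q) (lC z X2 y q) = x := by
  rw [fF, core_q x z X1 X2 y q hq hR]
  simp only [relF] at hR
  simp only [sC, mC, lC]
  linear_combination (-q^2)*hR

theorem core_X1 (x z X1 X2 y q : R) (hq : q = 1 + X1*X2 + x*y) (hR : relF x z X1 X2 y q = 0) :
    X1F z (sC z X2 y q) (mC x z X1 X2 y q) (lC z X2 y q) = X1 := by
  rw [X1F, aF, bF, core_q x z X1 X2 y q hq hR]
  simp only [relF] at hR
  simp only [sC, mC, lC]
  linear_combination (-(1+z*q))*hR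

theorem core_X2 (x z X1 X2 y q : R) (hq : q = 1 + X1*X2 + x*y) (hR : relF x z X1 X2 y q = 0) :
    X2F z (sC z X2 y q) (mC x z X1 X2 y q) (lC z X2 y q) = X2 := by
  rw [X2F, core_q x z X1 X2 y q hq hR]
  simp only [sC, lC]
  ring

theorem core_y (x z X1 X2 y q : R) (hq : q = 1 + X1*X2 + x*y) (hR : relF x z X1 X2 y q = 0) :
    yF z (sC z X2 y q) (mC x z X1 X2 y q) (lC z X2 y q) = y := by
  rw [yF, core_q x z X1 X2 y q hq hR]
  simp only [sC, lC]
  ring

theorem fwd_q (z s m l : R) :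
    qF z s m l = 1 + X1F z s m l * X2F z s m l + fF z s m l * yF z s m l := by
  simp only [X1F, X2F, yF, aF, bF, fF]
  generalize hq : qF z s m l = q
  simp only [qF] at hq
  linear_combination (-1 : R)*hq

theorem fwd_rel (z s m l : R) :
    relF (fF z s m l) z (X1F z s m l) (X2F z s m l) (yF z s m l) (qF z s m l) = 0 := by
  simp only [relF, X1F, X2F, yF, aF, bF, fF]
  generalize qF z s m l = q
  ring

theorem fwd_s (z s m l : R) : sC z (X2F z s m l) (yF z s m l) (qF z s m l) = s := by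
  simp only [sC, X2F, yF]
  generalize qF z s m l = q
  ring

theorem fwd_l (z s m l : R) : lC z (X2F z s m l) (yF z s m l) (qF z s m l) = l := by
  simp only [lC, X2F, yF]
  generalize qF z s m l = q
  ring

theorem fwd_m (z s m l : R) :
    mC (fF z s m l) z (X1F z s m l) (X2F z s m l) (yF z s m l) (qF z s m l) = m := by
  rw [mC, fwd_s]
  simp only [X1F, aF, bF, fF]
  generalize qF z s m l = q
  ring

/-! ### fibre over `c ≠ 0` -/
def laC (d p A B : R) : R := d*(A*B - p*(p^2-1))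
def X1C (d h p A B : R) : R := h*(laC d p A B*(1-p) + A + B)
def X2C (d h p A B : R) : R := laC d p A B - X1C d h p A B
def zC (d h p A B : R) : R := d*(A - X2C d h p A B*(p-1))
def yC (d h p A B : R) : R := d*(p - X1C d h p A B * X2C d h p A B)

theorem relC (c d h p A B : R) (hd : c*d = 1) (h2 : 2*h = 1) :
    relF c (zC d h p A B) (X1C d h p A B) (X2C d h p A B) (yC d h p A B) (p+1) = 0 := by
  have h1 : 2 * X1C d h p A B = laC d p A B*(1-p) + A + B := by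
    rw [X1C]; linear_combination (laC d p A B*(1-p) + A + B)*h2
  have h3 : X2C d h p A B = laC d p A B - X1C d h p A B := rfl
  have h4 : c * zC d h p A B = A - X2C d h p A B*(p-1) := by
    rw [zC]; linear_combination (A - X2C d h p A B*(p-1))*hd
  have h5 : c * yC d h p A B = p - X1C d h p A B * X2C d h p A B := by
    rw [yC]; linear_combination (p - X1C d h p A B * X2C d h p A B)*hd
  have h6 : c * laC d p A B = A*B - p*(p^2-1) := by
    rw [laC]; linear_combination (A*B - p*(p^2-1))*hd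
  generalize X1C d h p A B = X1 at *
  generalize X2C d h p A B = X2 at *
  generalize zC d h p A B = z at *
  generalize yC d h p A B = y at *
  generalize laC d p A B = la at *
  subst h3
  have hB : B = X1*(p+1) - c*z := by linear_combination -h1 + h4
  have hA : A = (la - X1)*(p-1) + c*z := by linear_combination -h4
  have key : c * relF c z X1 (la - X1) y (p+1) = 0 := by
    subst hB hA
    simp only [relF]
    linear_combination h6 + (p^2-1)*h5
  calc relF c z X1 (la - X1) y (p+1) = d * (c * relF c z X1 (la - X1) y (p+1)) := by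
        linear_combination (-relF c z X1 (la - X1) y (p+1))*hd
    _ = 0 := by rw [key, mul_zero]

theorem qC (c d h p A B : R) (hd : c*d = 1) :
    p + 1 = 1 + X1C d h p A B * X2C d h p A B + c * yC d h p A B := by
  rw [yC]; linear_combination -(p - X1C d h p A B * X2C d h p A B)*hd

def sCC (d h p A B : R) : R := sC (zC d h p A B) (X2C d h p A B) (yC d h p A B) (p+1)
def lCC (d h p A B : R) : R := lC (zC d h p A B) (X2C d h p A B) (yC d h p A B) (p+1)
def mCC (c d h p A B : R) : R :=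
  mC c (zC d h p A B) (X1C d h p A B) (X2C d h p A B) (yC d h p A B) (p+1)

theorem fC (c d h p A B : R) (hd : c*d = 1) (h2 : 2*h = 1) :
    fF (zC d h p A B) (sCC d h p A B) (mCC c d h p A B) (lCC d h p A B) = c :=
  core_f _ _ _ _ _ _ (qC c d h p A B hd) (relC c d h p A B hd h2)

theorem pC (c d h p A B : R) (hd : c*d = 1) (h2 : 2*h = 1) :
    pF (zC d h p A B) (sCC d h p A B) (mCC c d h p A B) (lCC d h p A B) = p := by
  have := core_q _ _ _ _ _ _ (qC c d h p A B hd) (relC c d h p A B hd h2)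
  rw [pF, sCC, mCC, lCC, this]; ring

theorem AC (c d h p A B : R) (hd : c*d = 1) (h2 : 2*h = 1) :
    AF (zC d h p A B) (sCC d h p A B) (mCC c d h p A B) (lCC d h p A B) = A := by
  have := core_X2 _ _ _ _ _ _ (qC c d h p A B hd) (relC c d h p A B hd h2)
  rw [AF, fC c d h p A B hd h2, pC c d h p A B hd h2, sCC, mCC, lCC, this, zC]
  linear_combination (A - X2C d h p A B*(p-1))*hd

theorem BC (c d h p A B : R) (hd : c*d = 1) (h2 : 2*h = 1) :
    BF (zC d h p A B) (sCC d h p A B) (mCC c d h p A B) (lCC d h p A B) = B := by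
  have := core_X1 _ _ _ _ _ _ (qC c d h p A B hd) (relC c d h p A B hd h2)
  rw [BF, fC c d h p A B hd h2, pC c d h p A B hd h2, sCC, mCC, lCC, this, zC, X2C]
  have h1 : 2 * X1C d h p A B = laC d p A B*(1-p) + A + B := by
    rw [X1C]; linear_combination (laC d p A B*(1-p) + A + B)*h2
  linear_combination h1 - (A - (laC d p A B - X1C d h p A B)*(p-1))*hd

/-- identities in `W` -/
theorem W_la (z s m l : R) :
    fF z s m l * (X1F z s m l + X2F z s m l) =
      AF z s m l * BF z s m l - pF z s m l * ((pF z s m l)^2 - 1) := by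
  have h1 := fwd_q z s m l
  have h2 := fwd_rel z s m l
  simp only [relF] at h2
  simp only [AF, BF, pF]
  generalize X1F z s m l = X1 at *
  generalize X2F z s m l = X2 at *
  generalize yF z s m l = y at *
  generalize fF z s m l = x at *
  generalize qF z s m l = q at *
  linear_combination x*h2 + (q^2-2*q)*h1

theorem W_X1 (z s m l : R) :
    2 * X1F z s m l = (X1F z s m l + X2F z s m l)*(1 - pF z s m l) + AF z s m l + BF z s m l := by
  simp only [AF, BF]; ring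

theorem invC_la (c d z s m l : R) (hd : c*d = 1) (hf : fF z s m l = c) :
    laC d (pF z s m l) (AF z s m l) (BF z s m l) = X1F z s m l + X2F z s m l := by
  rw [laC, ← W_la, hf]; linear_combination (X1F z s m l + X2F z s m l)*hd

theorem invC_X1 (c d h z s m l : R) (hd : c*d = 1) (h2 : 2*h = 1) (hf : fF z s m l = c) :
    X1C d h (pF z s m l) (AF z s m l) (BF z s m l) = X1F z s m l := by
  rw [X1C, invC_la c d z s m l hd hf]
  linear_combination (-h)*(W_X1 z s m l) + (X1F z s m l)*h2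

theorem invC_X2 (c d h z s m l : R) (hd : c*d = 1) (h2 : 2*h = 1) (hf : fF z s m l = c) :
    X2C d h (pF z s m l) (AF z s m l) (BF z s m l) = X2F z s m l := by
  rw [X2C, invC_la c d z s m l hd hf, invC_X1 c d h z s m l hd h2 hf]; ring

theorem invC_z (c d h z s m l : R) (hd : c*d = 1) (h2 : 2*h = 1) (hf : fF z s m l = c) :
    zC d h (pF z s m l) (AF z s m l) (BF z s m l) = z := by
  rw [zC, invC_X2 c d h z s m l hd h2 hf, AF, hf]; linear_combination z*hd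

theorem invC_y (c d h z s m l : R) (hd : c*d = 1) (h2 : 2*h = 1) (hf : fF z s m l = c) :
    yC d h (pF z s m l) (AF z s m l) (BF z s m l) = yF z s m l := by
  rw [yC, invC_X2 c d h z s m l hd h2 hf, invC_X1 c d h z s m l hd h2 hf]
  have h1 := fwd_q z s m l
  rw [hf] at h1
  rw [pF]; linear_combination d*h1 + (yF z s m l)*hd

theorem invC_s (c d h z s m l : R) (hd : c*d = 1) (h2 : 2*h = 1) (hf : fF z s m l = c) :
    sCC d h (pF z s m l) (AF z s m l) (BF z s m l) = s := by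
  rw [sCC, invC_X2 c d h z s m l hd h2 hf, invC_z c d h z s m l hd h2 hf,
    invC_y c d h z s m l hd h2 hf]
  have : pF z s m l + 1 = qF z s m l := by rw [pF]; ring
  rw [this, fwd_s]

theorem invC_l (c d h z s m l : R) (hd : c*d = 1) (h2 : 2*h = 1) (hf : fF z s m l = c) :
    lCC d h (pF z s m l) (AF z s m l) (BF z s m l) = l := by
  rw [lCC, invC_X2 c d h z s m l hd h2 hf, invC_z c d h z s m l hd h2 hf,
    invC_y c d h z s m l hd h2 hf]
  have : pF z s m l + 1 = qF z s m l := by rw [pF]; ring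
  rw [this, fwd_l]

theorem invC_m (c d h z s m l : R) (hd : c*d = 1) (h2 : 2*h = 1) (hf : fF z s m l = c) :
    mCC c d h (pF z s m l) (AF z s m l) (BF z s m l) = m := by
  rw [mCC, invC_X2 c d h z s m l hd h2 hf, invC_z c d h z s m l hd h2 hf,
    invC_y c d h z s m l hd h2 hf, invC_X1 c d h z s m l hd h2 hf]
  have : pF z s m l + 1 = qF z s m l := by rw [pF]; ring
  rw [this]
  have h3 := fwd_m z s m l
  rwa [hf] at h3

/-! ### fibre over `0` -/
def g0 (X1 X2 : R) : R := X1*(X1*X2+1) - X2*(X1*X2-1)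
def h0 (k X1 X2 : R) : R := k*(X2*(X1*X2+1) + X1*(X1*X2-1))
def k0 (k X1 X2 : R) : R := k*(4 + X1^2 - X2^2)
def z0 (k X1 X2 e : R) : R := h0 k X1 X2*(X1+X2) + ((X1*X2)^2-1)*e
def y0 (k X1 X2 e : R) : R := k0 k X1 X2*(X1+X2) + g0 X1 X2*e

theorem uni0 (k X1 X2 : R) (hk : 4*k = 1) :
    g0 X1 X2 * h0 k X1 X2 - ((X1*X2)^2-1)*k0 k X1 X2 = 1 := by
  simp only [g0, h0, k0]; linear_combination hk

theorem rel0 (k X1 X2 e : R) (hk : 4*k = 1) :
    relF 0 (z0 k X1 X2 e) X1 X2 (y0 k X1 X2 e) (1 + X1*X2) = 0 := by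
  have h1 := uni0 k X1 X2 hk
  simp only [relF, z0, y0]
  generalize hh : h0 k X1 X2 = h at *
  generalize hkk : k0 k X1 X2 = kk at *
  simp only [g0] at *
  linear_combination (-(X1+X2))*h1

def s0 (k X1 X2 e : R) : R := sC (z0 k X1 X2 e) X2 (y0 k X1 X2 e) (1 + X1*X2)
def l0 (k X1 X2 e : R) : R := lC (z0 k X1 X2 e) X2 (y0 k X1 X2 e) (1 + X1*X2)
def m0 (k X1 X2 e : R) : R := mC 0 (z0 k X1 X2 e) X1 X2 (y0 k X1 X2 e) (1 + X1*X2)

def eF (k z s m l : R) : R :=
  h0 k (X1F z s m l) (X2F z s m l) * yF z s m l - k0 k (X1F z s m l) (X2F z s m l) * z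

theorem q0 (k X1 X2 e : R) : 1 + X1*X2 = 1 + X1*X2 + 0 * y0 k X1 X2 e := by ring

theorem f0 (k X1 X2 e : R) (hk : 4*k = 1) :
    fF (z0 k X1 X2 e) (s0 k X1 X2 e) (m0 k X1 X2 e) (l0 k X1 X2 e) = 0 :=
  core_f _ _ _ _ _ _ (q0 k X1 X2 e) (rel0 k X1 X2 e hk)

theorem X10 (k X1 X2 e : R) (hk : 4*k = 1) :
    X1F (z0 k X1 X2 e) (s0 k X1 X2 e) (m0 k X1 X2 e) (l0 k X1 X2 e) = X1 :=
  core_X1 _ _ _ _ _ _ (q0 k X1 X2 e) (rel0 k X1 X2 e hk)

theorem X20 (k X1 X2 e : R) (hk : 4*k = 1) :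
    X2F (z0 k X1 X2 e) (s0 k X1 X2 e) (m0 k X1 X2 e) (l0 k X1 X2 e) = X2 :=
  core_X2 _ _ _ _ _ _ (q0 k X1 X2 e) (rel0 k X1 X2 e hk)

theorem e0 (k X1 X2 e : R) (hk : 4*k = 1) :
    eF k (z0 k X1 X2 e) (s0 k X1 X2 e) (m0 k X1 X2 e) (l0 k X1 X2 e) = e := by
  have hy : yF (z0 k X1 X2 e) (s0 k X1 X2 e) (m0 k X1 X2 e) (l0 k X1 X2 e) = y0 k X1 X2 e :=
    core_y _ _ _ _ _ _ (q0 k X1 X2 e) (rel0 k X1 X2 e hk)
  rw [eF, X10 k X1 X2 e hk, X20 k X1 X2 e hk, hy, y0, z0]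
  linear_combination e*(uni0 k X1 X2 hk)

theorem inv0_aux (k z s m l : R) (hf : fF z s m l = 0) :
    ((X1F z s m l * X2F z s m l)^2-1)*yF z s m l + (X1F z s m l + X2F z s m l)
      = g0 (X1F z s m l) (X2F z s m l) * z ∧ qF z s m l = 1 + X1F z s m l * X2F z s m l := by
  have h1 := fwd_q z s m l
  have h2 := fwd_rel z s m l
  rw [hf] at h1 h2
  have hq : qF z s m l = 1 + X1F z s m l * X2F z s m l := by linear_combination h1
  refine ⟨?_, hq⟩
  rw [hq] at h2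
  simp only [relF, g0] at *
  linear_combination h2

theorem inv0_z (k z s m l : R) (hk : 4*k = 1) (hf : fF z s m l = 0) :
    z0 k (X1F z s m l) (X2F z s m l) (eF k z s m l) = z := by
  obtain ⟨h1, hq⟩ := inv0_aux k z s m l hf
  have h2 := uni0 k (X1F z s m l) (X2F z s m l) hk
  rw [z0, eF]
  linear_combination (h0 k (X1F z s m l) (X2F z s m l))*h1 + z*h2

theorem inv0_y (k z s m l : R) (hk : 4*k = 1) (hf : fF z s m l = 0) :
    y0 k (X1F z s m l) (X2F z s m l) (eF k z s m l) = yF z s m l := by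
  obtain ⟨h1, hq⟩ := inv0_aux k z s m l hf
  have h2 := uni0 k (X1F z s m l) (X2F z s m l) hk
  rw [y0, eF]
  linear_combination (k0 k (X1F z s m l) (X2F z s m l))*h1 + (yF z s m l)*h2

theorem inv0_s (k z s m l : R) (hk : 4*k = 1) (hf : fF z s m l = 0) :
    s0 k (X1F z s m l) (X2F z s m l) (eF k z s m l) = s := by
  rw [s0, inv0_z k z s m l hk hf, inv0_y k z s m l hk hf, ← (inv0_aux k z s m l hf).2, fwd_s]

theorem inv0_l (k z s m l : R) (hk : 4*k = 1) (hf : fF z s m l = 0) :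
    l0 k (X1F z s m l) (X2F z s m l) (eF k z s m l) = l := by
  rw [l0, inv0_z k z s m l hk hf, inv0_y k z s m l hk hf, ← (inv0_aux k z s m l hf).2, fwd_l]

theorem inv0_m (k z s m l : R) (hk : 4*k = 1) (hf : fF z s m l = 0) :
    m0 k (X1F z s m l) (X2F z s m l) (eF k z s m l) = m := by
  rw [m0, inv0_z k z s m l hk hf, inv0_y k z s m l hk hf, ← (inv0_aux k z s m l hf).2]
  have h3 := fwd_m z s m l
  rwa [hf] at h3

end Defs

section Maps
open MvPolynomial

theorem map_qF {R S : Type*} [CommRing R] [CommRing S] (φ : R →+* S) (z s m l : R) :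
    φ (qF z s m l) = qF (φ z) (φ s) (φ m) (φ l) := by simp [map_ofNat, qF]
theorem map_fF {R S : Type*} [CommRing R] [CommRing S] (φ : R →+* S) (z s m l : R) :
    φ (fF z s m l) = fF (φ z) (φ s) (φ m) (φ l) := by simp [map_ofNat, fF, map_qF]
theorem map_pF {R S : Type*} [CommRing R] [CommRing S] (φ : R →+* S) (z s m l : R) :
    φ (pF z s m l) = pF (φ z) (φ s) (φ m) (φ l) := by simp [map_ofNat, pF, map_qF]
theorem map_X1F {R S : Type*} [CommRing R] [CommRing S] (φ : R →+* S) (z s m l : R) :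
    φ (X1F z s m l) = X1F (φ z) (φ s) (φ m) (φ l) := by simp [map_ofNat, X1F, aF, bF, map_qF]
theorem map_X2F {R S : Type*} [CommRing R] [CommRing S] (φ : R →+* S) (z s m l : R) :
    φ (X2F z s m l) = X2F (φ z) (φ s) (φ m) (φ l) := by simp [map_ofNat, X2F, map_qF]
theorem map_yF {R S : Type*} [CommRing R] [CommRing S] (φ : R →+* S) (z s m l : R) :
    φ (yF z s m l) = yF (φ z) (φ s) (φ m) (φ l) := by simp [map_ofNat, yF, map_qF]
theorem map_AF {R S : Type*} [CommRing R] [CommRing S] (φ : R →+* S) (z s m l : R) :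
    φ (AF z s m l) = AF (φ z) (φ s) (φ m) (φ l) := by simp [map_ofNat, AF, map_X2F, map_pF, map_fF]
theorem map_BF {R S : Type*} [CommRing R] [CommRing S] (φ : R →+* S) (z s m l : R) :
    φ (BF z s m l) = BF (φ z) (φ s) (φ m) (φ l) := by simp [map_ofNat, BF, map_X1F, map_pF, map_fF]
theorem map_eF {R S : Type*} [CommRing R] [CommRing S] (φ : R →+* S) (k z s m l : R) :
    φ (eF k z s m l) = eF (φ k) (φ z) (φ s) (φ m) (φ l) := by
  simp [map_ofNat, eF, h0, k0, map_X1F, map_X2F, map_yF]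

theorem map_sC {R S : Type*} [CommRing R] [CommRing S] (φ : R →+* S) (z X2 y q : R) :
    φ (sC z X2 y q) = sC (φ z) (φ X2) (φ y) (φ q) := by simp [map_ofNat, sC]
theorem map_lC {R S : Type*} [CommRing R] [CommRing S] (φ : R →+* S) (z X2 y q : R) :
    φ (lC z X2 y q) = lC (φ z) (φ X2) (φ y) (φ q) := by simp [map_ofNat, lC]
theorem map_mC {R S : Type*} [CommRing R] [CommRing S] (φ : R →+* S) (x z X1 X2 y q : R) :
    φ (mC x z X1 X2 y q) = mC (φ x) (φ z) (φ X1) (φ X2) (φ y) (φ q) := by simp [map_ofNat, mC, map_sC]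

theorem map_zC {R S : Type*} [CommRing R] [CommRing S] (φ : R →+* S) (d h p A B : R) :
    φ (zC d h p A B) = zC (φ d) (φ h) (φ p) (φ A) (φ B) := by simp [map_ofNat, zC, X2C, X1C, laC]
theorem map_sCC {R S : Type*} [CommRing R] [CommRing S] (φ : R →+* S) (d h p A B : R) :
    φ (sCC d h p A B) = sCC (φ d) (φ h) (φ p) (φ A) (φ B) := by
  simp [map_ofNat, sCC, map_sC, zC, yC, X2C, X1C, laC]
theorem map_lCC {R S : Type*} [CommRing R] [CommRing S] (φ : R →+* S) (d h p A B : R) :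
    φ (lCC d h p A B) = lCC (φ d) (φ h) (φ p) (φ A) (φ B) := by
  simp [map_ofNat, lCC, map_lC, zC, yC, X2C, X1C, laC]
theorem map_mCC {R S : Type*} [CommRing R] [CommRing S] (φ : R →+* S) (c d h p A B : R) :
    φ (mCC c d h p A B) = mCC (φ c) (φ d) (φ h) (φ p) (φ A) (φ B) := by
  simp [map_ofNat, mCC, map_mC, zC, yC, X2C, X1C, laC]

theorem map_z0 {R S : Type*} [CommRing R] [CommRing S] (φ : R →+* S) (k X1 X2 e : R) :
    φ (z0 k X1 X2 e) = z0 (φ k) (φ X1) (φ X2) (φ e) := by simp [map_ofNat, z0, h0]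
theorem map_s0 {R S : Type*} [CommRing R] [CommRing S] (φ : R →+* S) (k X1 X2 e : R) :
    φ (s0 k X1 X2 e) = s0 (φ k) (φ X1) (φ X2) (φ e) := by
  simp [map_ofNat, s0, map_sC, z0, y0, h0, k0, g0]
theorem map_l0 {R S : Type*} [CommRing R] [CommRing S] (φ : R →+* S) (k X1 X2 e : R) :
    φ (l0 k X1 X2 e) = l0 (φ k) (φ X1) (φ X2) (φ e) := by
  simp [map_ofNat, l0, map_lC, z0, y0, h0, k0, g0]
theorem map_m0 {R S : Type*} [CommRing R] [CommRing S] (φ : R →+* S) (k X1 X2 e : R) :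
    φ (m0 k X1 X2 e) = m0 (φ k) (φ X1) (φ X2) (φ e) := by
  simp [map_ofNat, m0, map_mC, z0, y0, h0, k0, g0]

abbrev W4 := MvPolynomial (Fin 4) ℂ
abbrev P3 := MvPolynomial (Fin 3) ℂ

/-- the polynomial -/
noncomputable def fP : W4 := fF (X 0) (X 1) (X 2) (X 3)

theorem fib_ne (c : ℂ) (hc : c ≠ 0) :
    Nonempty ((W4 ⧸ Ideal.span {fP - C c}) ≃ₐ[ℂ] P3) := by
  set cc : P3 := C c with hcc
  set dd : P3 := C c⁻¹ with hdd
  set hh : P3 := C (1/2) with hhh
  have hd : cc * dd = 1 := by rw [hcc, hdd, ← C_mul, mul_inv_cancel₀ hc, C_1]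
  have h2 : 2 * hh = 1 := by
    rw [hhh, show (2 : P3) = C 2 from (map_ofNat C 2).symm, ← C_mul]; norm_num
  set I : Ideal W4 := Ideal.span {fP - C c} with hI
  let φ0 : W4 →ₐ[ℂ] P3 := aeval ![zC dd hh (X 0) (X 1) (X 2), sCC dd hh (X 0) (X 1) (X 2),
    mCC cc dd hh (X 0) (X 1) (X 2), lCC dd hh (X 0) (X 1) (X 2)]
  have e0' : φ0 (X 0) = zC dd hh (X 0) (X 1) (X 2) := by simp [φ0]
  have e1' : φ0 (X 1) = sCC dd hh (X 0) (X 1) (X 2) := by simp [φ0]
  have e2' : φ0 (X 2) = mCC cc dd hh (X 0) (X 1) (X 2) := by simp [φ0]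
  have e3' : φ0 (X 3) = lCC dd hh (X 0) (X 1) (X 2) := by simp [φ0]
  have hφf : φ0 fP = cc := by
    have := map_fF (φ0 : W4 →+* P3) (X 0) (X 1) (X 2) (X 3)
    simp only [RingHom.coe_coe] at this
    rw [fP, this, e0', e1', e2', e3', fC _ _ _ _ _ _ hd h2]
  have hφI : ∀ a ∈ I, φ0 a = 0 := by
    intro a ha
    rw [hI, Ideal.mem_span_singleton] at ha
    obtain ⟨b, rfl⟩ := ha
    rw [map_mul, map_sub, hφf]
    have : φ0 (C c) = cc := by simp [φ0, hcc, MvPolynomial.algebraMap_eq]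
    rw [this, sub_self, zero_mul]
  let φ : (W4 ⧸ I) →ₐ[ℂ] P3 := Ideal.Quotient.liftₐ I φ0 hφI
  let π : W4 →ₐ[ℂ] (W4 ⧸ I) := Ideal.Quotient.mkₐ ℂ I
  have hφπ : ∀ a, φ (π a) = φ0 a := fun a => rfl
  let ψ : P3 →ₐ[ℂ] (W4 ⧸ I) := aeval ![π (pF (X 0) (X 1) (X 2) (X 3)),
    π (AF (X 0) (X 1) (X 2) (X 3)), π (BF (X 0) (X 1) (X 2) (X 3))]
  have g0' : ψ (X 0) = π (pF (X 0) (X 1) (X 2) (X 3)) := by simp [ψ]
  have g1' : ψ (X 1) = π (AF (X 0) (X 1) (X 2) (X 3)) := by simp [ψ]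
  have g2' : ψ (X 2) = π (BF (X 0) (X 1) (X 2) (X 3)) := by simp [ψ]
  have hdW : ψ cc * ψ dd = 1 := by rw [← map_mul, hd, map_one]
  have h2W : 2 * ψ hh = 1 := by rw [← map_ofNat ψ 2, ← map_mul, h2, map_one]
  have hcW : ψ cc = algebraMap ℂ _ c := by simp [ψ, hcc]
  have hπf : π fP = ψ cc := by
    have h1 : π (fP - C c) = 0 := by
      have : fP - C c ∈ I := Ideal.subset_span rfl
      exact Ideal.Quotient.eq_zero_iff_mem.mpr this
    rw [map_sub, sub_eq_zero] at h1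
    rw [h1, hcW]
    exact AlgHom.commutes π c
  have hfπ : fF (π (X 0)) (π (X 1)) (π (X 2)) (π (X 3)) = ψ cc := by
    rw [← hπf, fP]
    exact (map_fF (π : W4 →+* (W4 ⧸ I)) _ _ _ _).symm
  have hp : π (pF (X 0) (X 1) (X 2) (X 3)) = pF (π (X 0)) (π (X 1)) (π (X 2)) (π (X 3)) :=
    map_pF (π : W4 →+* (W4 ⧸ I)) _ _ _ _
  have hA : π (AF (X 0) (X 1) (X 2) (X 3)) = AF (π (X 0)) (π (X 1)) (π (X 2)) (π (X 3)) :=
    map_AF (π : W4 →+* (W4 ⧸ I)) _ _ _ _
  have hB : π (BF (X 0) (X 1) (X 2) (X 3)) = BF (π (X 0)) (π (X 1)) (π (X 2)) (π (X 3)) :=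
    map_BF (π : W4 →+* (W4 ⧸ I)) _ _ _ _
  have c1 : φ.comp ψ = AlgHom.id ℂ P3 := by
    apply MvPolynomial.algHom_ext
    intro i
    fin_cases i
    · show φ (ψ (X 0)) = X 0
      rw [g0', hφπ]
      have := map_pF (φ0 : W4 →+* P3) (X 0) (X 1) (X 2) (X 3)
      simp only [RingHom.coe_coe] at this
      rw [this, e0', e1', e2', e3', pC _ _ _ _ _ _ hd h2]
    · show φ (ψ (X 1)) = X 1
      rw [g1', hφπ]
      have := map_AF (φ0 : W4 →+* P3) (X 0) (X 1) (X 2) (X 3)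
      simp only [RingHom.coe_coe] at this
      rw [this, e0', e1', e2', e3', AC _ _ _ _ _ _ hd h2]
    · show φ (ψ (X 2)) = X 2
      rw [g2', hφπ]
      have := map_BF (φ0 : W4 →+* P3) (X 0) (X 1) (X 2) (X 3)
      simp only [RingHom.coe_coe] at this
      rw [this, e0', e1', e2', e3', BC _ _ _ _ _ _ hd h2]
  have key : (ψ.comp φ).comp π = π := by
    apply MvPolynomial.algHom_ext
    intro i
    fin_cases i
    · show ψ (φ (π (X 0))) = π (X 0)
      rw [hφπ, e0']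
      have := map_zC (ψ : P3 →+* (W4 ⧸ I)) dd hh (X 0) (X 1) (X 2)
      simp only [RingHom.coe_coe] at this
      rw [this, g0', g1', g2', hp, hA, hB, invC_z _ _ _ _ _ _ _ hdW h2W hfπ]
    · show ψ (φ (π (X 1))) = π (X 1)
      rw [hφπ, e1']
      have := map_sCC (ψ : P3 →+* (W4 ⧸ I)) dd hh (X 0) (X 1) (X 2)
      simp only [RingHom.coe_coe] at this
      rw [this, g0', g1', g2', hp, hA, hB, invC_s _ _ _ _ _ _ _ hdW h2W hfπ]
    · show ψ (φ (π (X 2))) = π (X 2)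
      rw [hφπ, e2']
      have := map_mCC (ψ : P3 →+* (W4 ⧸ I)) cc dd hh (X 0) (X 1) (X 2)
      simp only [RingHom.coe_coe] at this
      rw [this, g0', g1', g2', hp, hA, hB, invC_m _ _ _ _ _ _ _ hdW h2W hfπ]
    · show ψ (φ (π (X 3))) = π (X 3)
      rw [hφπ, e3']
      have := map_lCC (ψ : P3 →+* (W4 ⧸ I)) dd hh (X 0) (X 1) (X 2)
      simp only [RingHom.coe_coe] at this
      rw [this, g0', g1', g2', hp, hA, hB, invC_l _ _ _ _ _ _ _ hdW h2W hfπ]
  have c2 : ψ.comp φ = AlgHom.id ℂ (W4 ⧸ I) := by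
    apply AlgHom.ext
    intro a
    obtain ⟨b, rfl⟩ := Ideal.Quotient.mkₐ_surjective ℂ I a
    exact congrArg (fun F : W4 →ₐ[ℂ] (W4 ⧸ I) => F b) key
  exact ⟨AlgEquiv.ofAlgHom φ ψ c1 c2⟩

theorem fib_zero : Nonempty ((W4 ⧸ Ideal.span {fP - C (0:ℂ)}) ≃ₐ[ℂ] P3) := by
  set kk : P3 := C (1/4) with hkk
  have hk : 4 * kk = 1 := by
    rw [hkk, show (4 : P3) = C 4 from (map_ofNat C 4).symm, ← C_mul]; norm_num
  set kw : W4 := C (1/4) with hkw
  set I : Ideal W4 := Ideal.span {fP - C (0:ℂ)} with hI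
  let φ0 : W4 →ₐ[ℂ] P3 := aeval ![z0 kk (X 0) (X 1) (X 2), s0 kk (X 0) (X 1) (X 2),
    m0 kk (X 0) (X 1) (X 2), l0 kk (X 0) (X 1) (X 2)]
  have e0' : φ0 (X 0) = z0 kk (X 0) (X 1) (X 2) := by simp [φ0]
  have e1' : φ0 (X 1) = s0 kk (X 0) (X 1) (X 2) := by simp [φ0]
  have e2' : φ0 (X 2) = m0 kk (X 0) (X 1) (X 2) := by simp [φ0]
  have e3' : φ0 (X 3) = l0 kk (X 0) (X 1) (X 2) := by simp [φ0]
  have ek : φ0 kw = kk := by simp [φ0, hkw, hkk, MvPolynomial.algebraMap_eq]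
  have hφf : φ0 fP = 0 := by
    have := map_fF (φ0 : W4 →+* P3) (X 0) (X 1) (X 2) (X 3)
    simp only [RingHom.coe_coe] at this
    rw [fP, this, e0', e1', e2', e3', f0 _ _ _ _ hk]
  have hφI : ∀ a ∈ I, φ0 a = 0 := by
    intro a ha
    rw [hI, Ideal.mem_span_singleton] at ha
    obtain ⟨b, rfl⟩ := ha
    rw [map_mul, map_sub, hφf]
    simp
  let φ : (W4 ⧸ I) →ₐ[ℂ] P3 := Ideal.Quotient.liftₐ I φ0 hφI
  let π : W4 →ₐ[ℂ] (W4 ⧸ I) := Ideal.Quotient.mkₐ ℂ I
  have hφπ : ∀ a, φ (π a) = φ0 a := fun a => rfl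
  let ψ : P3 →ₐ[ℂ] (W4 ⧸ I) := aeval ![π (X1F (X 0) (X 1) (X 2) (X 3)),
    π (X2F (X 0) (X 1) (X 2) (X 3)), π (eF kw (X 0) (X 1) (X 2) (X 3))]
  have g0' : ψ (X 0) = π (X1F (X 0) (X 1) (X 2) (X 3)) := by simp [ψ]
  have g1' : ψ (X 1) = π (X2F (X 0) (X 1) (X 2) (X 3)) := by simp [ψ]
  have g2' : ψ (X 2) = π (eF kw (X 0) (X 1) (X 2) (X 3)) := by simp [ψ]
  have hkW : 4 * ψ kk = 1 := by rw [← map_ofNat ψ 4, ← map_mul, hk, map_one]
  have hkk2 : ψ kk = π kw := by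
    have h1 : ψ kk = algebraMap ℂ _ (1/4) := by
      rw [hkk]; exact MvPolynomial.algHom_C ψ _
    have h2 : π kw = algebraMap ℂ _ (1/4) := by
      rw [hkw]; exact MvPolynomial.algHom_C π _
    rw [h1, h2]
  have hπf : π fP = 0 := by
    have h1 : π (fP - C (0:ℂ)) = 0 := by
      have : fP - C (0:ℂ) ∈ I := Ideal.subset_span rfl
      exact Ideal.Quotient.eq_zero_iff_mem.mpr this
    simpa using h1
  have hfπ : fF (π (X 0)) (π (X 1)) (π (X 2)) (π (X 3)) = 0 := by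
    rw [← hπf, fP]
    exact (map_fF (π : W4 →+* (W4 ⧸ I)) _ _ _ _).symm
  have hp : π (X1F (X 0) (X 1) (X 2) (X 3)) = X1F (π (X 0)) (π (X 1)) (π (X 2)) (π (X 3)) :=
    map_X1F (π : W4 →+* (W4 ⧸ I)) _ _ _ _
  have hA : π (X2F (X 0) (X 1) (X 2) (X 3)) = X2F (π (X 0)) (π (X 1)) (π (X 2)) (π (X 3)) :=
    map_X2F (π : W4 →+* (W4 ⧸ I)) _ _ _ _
  have hB : π (eF kw (X 0) (X 1) (X 2) (X 3)) =
      eF (ψ kk) (π (X 0)) (π (X 1)) (π (X 2)) (π (X 3)) := by
    rw [hkk2]; exact map_eF (π : W4 →+* (W4 ⧸ I)) _ _ _ _ _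
  have c1 : φ.comp ψ = AlgHom.id ℂ P3 := by
    apply MvPolynomial.algHom_ext
    intro i
    fin_cases i
    · show φ (ψ (X 0)) = X 0
      rw [g0', hφπ]
      have := map_X1F (φ0 : W4 →+* P3) (X 0) (X 1) (X 2) (X 3)
      simp only [RingHom.coe_coe] at this
      rw [this, e0', e1', e2', e3', X10 _ _ _ _ hk]
    · show φ (ψ (X 1)) = X 1
      rw [g1', hφπ]
      have := map_X2F (φ0 : W4 →+* P3) (X 0) (X 1) (X 2) (X 3)
      simp only [RingHom.coe_coe] at this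
      rw [this, e0', e1', e2', e3', X20 _ _ _ _ hk]
    · show φ (ψ (X 2)) = X 2
      rw [g2', hφπ]
      have := map_eF (φ0 : W4 →+* P3) kw (X 0) (X 1) (X 2) (X 3)
      simp only [RingHom.coe_coe] at this
      rw [this, ek, e0', e1', e2', e3', e0 _ _ _ _ hk]
  have key : (ψ.comp φ).comp π = π := by
    apply MvPolynomial.algHom_ext
    intro i
    fin_cases i
    · show ψ (φ (π (X 0))) = π (X 0)
      rw [hφπ, e0']
      have := map_z0 (ψ : P3 →+* (W4 ⧸ I)) kk (X 0) (X 1) (X 2)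
      simp only [RingHom.coe_coe] at this
      rw [this, g0', g1', g2', hp, hA, hB, inv0_z _ _ _ _ _ hkW hfπ]
    · show ψ (φ (π (X 1))) = π (X 1)
      rw [hφπ, e1']
      have := map_s0 (ψ : P3 →+* (W4 ⧸ I)) kk (X 0) (X 1) (X 2)
      simp only [RingHom.coe_coe] at this
      rw [this, g0', g1', g2', hp, hA, hB, inv0_s _ _ _ _ _ hkW hfπ]
    · show ψ (φ (π (X 2))) = π (X 2)
      rw [hφπ, e2']
      have := map_m0 (ψ : P3 →+* (W4 ⧸ I)) kk (X 0) (X 1) (X 2)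
      simp only [RingHom.coe_coe] at this
      rw [this, g0', g1', g2', hp, hA, hB, inv0_m _ _ _ _ _ hkW hfπ]
    · show ψ (φ (π (X 3))) = π (X 3)
      rw [hφπ, e3']
      have := map_l0 (ψ : P3 →+* (W4 ⧸ I)) kk (X 0) (X 1) (X 2)
      simp only [RingHom.coe_coe] at this
      rw [this, g0', g1', g2', hp, hA, hB, inv0_l _ _ _ _ _ hkW hfπ]
  have c2 : ψ.comp φ = AlgHom.id ℂ (W4 ⧸ I) := by
    apply AlgHom.ext
    intro a
    obtain ⟨b, rfl⟩ := Ideal.Quotient.mkₐ_surjective ℂ I a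
    exact congrArg (fun F : W4 →ₐ[ℂ] (W4 ⧸ I) => F b) key
  exact ⟨AlgEquiv.ofAlgHom φ ψ c1 c2⟩

/-- all fibres are affine three-spaces -/
theorem fib (c : ℂ) : Nonempty ((W4 ⧸ Ideal.span {fP - C c}) ≃ₐ[ℂ] P3) := by
  by_cases hc : c = 0
  · subst hc; exact fib_zero
  · exact fib_ne c hc

end Maps
end Crest.Agent.DW.FibAux

namespace Crest.Agent.DW
open MvPolynomial

theorem fib (c : ℂ) : Nonempty ((W ⧸ Ideal.span {ff - C c}) ≃ₐ[ℂ] MvPolynomial (Fin 3) ℂ) := by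
  have h : ff = FibAux.fP := by
    simp only [ff, FibAux.fP, xf, FibAux.fF, qf, FibAux.qF]
  rw [h]
  exact FibAux.fib c

end Crest.Agent.DW
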