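import Crest.Agent.DW.LND

/-! Homogeneous parts of derivations with respect to a `ℤ`-grading given by projections. -/

set_option autoImplicit false

namespace Crest.Agent.DW

/-- a `ℤ`-grading given by its projections -/
structure Gr (A : Type*) [CommRing A] [Algebra ℂ A] where
  comp : ℤ → A →ₗ[ℂ] A
  fin : ∀ a, {i | comp i a ≠ 0}.Finite
  sum : ∀ a, ∑ᶠ i, comp i a = a
  idem : ∀ i j a, comp i (comp j a) = if i = j then comp j a else 0
  mul : ∀ i j a b, comp (i + j) (comp i a * comp j b) = comp i a * comp j b

namespace Gr

variable {A : Type*} [CommRing A] [Algebra ℂ A] (G : Gr A)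

theorem ind {P : A → Prop} (h0 : P 0) (hadd : ∀ a b, P a → P b → P (a + b))
    (hc : ∀ i a, P (G.comp i a)) (a : A) : P a := by
  rw [← G.sum a, finsum_eq_sum_of_support_subset _ (s := (G.fin a).toFinset)
    (fun i hi => by simpa using hi)]
  exact Finset.sum_induction _ P hadd h0 (fun i _ => hc i a)

theorem comp_mul (i j k : ℤ) (a b : A) :
    G.comp k (G.comp i a * G.comp j b) =
      if k = i + j then G.comp i a * G.comp j b else 0 := by
  rw [← G.mul, G.idem, G.mul]

theorem comp_hom_mul (i k : ℤ) (a c : A) :
    G.comp (i + k) (G.comp i a * c) = G.comp i a * G.comp k c := by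
  refine G.ind (P := fun c => G.comp (i + k) (G.comp i a * c) = G.comp i a * G.comp k c)
    (by simp) (fun x y hx hy => by simp only [mul_add, map_add, hx, hy]) (fun j b => ?_) c
  rw [G.comp_mul, G.idem]
  by_cases h : k = j
  · subst h; simp
  · rw [if_neg h, if_neg (by omega), mul_zero]

theorem comp_hom_mul' (i k : ℤ) (a c : A) :
    G.comp (i + k) (G.comp k c * a) = G.comp i a * G.comp k c := by
  rw [add_comm, G.comp_hom_mul, mul_comm]

variable (D : Derivation ℂ A A) (d : ℤ)

/-- the homogeneous part of degree `d` of a derivation, as a function -/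
noncomputable def part0 (a : A) : A := ∑ᶠ i, G.comp (i + d) (D (G.comp i a))

theorem supp (a : A) : (Function.support fun i => G.comp (i + d) (D (G.comp i a))).Finite := by
  refine (G.fin a).subset fun i hi => ?_
  simp only [Function.mem_support, Set.mem_setOf_eq] at hi ⊢
  intro h
  apply hi
  rw [h, map_zero, map_zero]

theorem part0_hom (i : ℤ) (a : A) :
    G.part0 D d (G.comp i a) = G.comp (i + d) (D (G.comp i a)) := by
  unfold part0
  rw [finsum_eq_single _ i (fun j hj => by rw [G.idem, if_neg hj, map_zero, map_zero]), G.idem,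
    if_pos rfl]

theorem part0_add (a b : A) : G.part0 D d (a + b) = G.part0 D d a + G.part0 D d b := by
  unfold part0
  rw [← finsum_add_distrib (G.supp D d a) (G.supp D d b)]
  simp only [map_add]

theorem part0_smul (c : ℂ) (a : A) : G.part0 D d (c • a) = c • G.part0 D d a := by
  unfold part0
  rw [smul_finsum' c (G.supp D d a)]
  refine finsum_congr fun i => ?_
  rw [LinearMap.map_smul, Derivation.map_smul, LinearMap.map_smul]

/-- the homogeneous part of degree `d`, as a linear map -/
noncomputable def partL : A →ₗ[ℂ] A where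
  toFun := G.part0 D d
  map_add' := G.part0_add D d
  map_smul' := G.part0_smul D d

theorem partL_hom (i : ℤ) (a : A) :
    G.partL D d (G.comp i a) = G.comp (i + d) (D (G.comp i a)) := G.part0_hom D d i a

theorem partL_leibniz (a b : A) :
    G.partL D d (a * b) = a * G.partL D d b + b * G.partL D d a := by
  revert b
  refine G.ind (P := fun a => ∀ b, G.partL D d (a * b) = a * G.partL D d b + b * G.partL D d a)
    (by simp) (fun x y hx hy b => by
      simp only [add_mul, mul_add, map_add, hx, hy]; ring) (fun i a b => ?_) a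
  refine G.ind (P := fun b => G.partL D d (G.comp i a * b) =
    G.comp i a * G.partL D d b + b * G.partL D d (G.comp i a))
    (by simp) (fun x y hx hy => by
      simp only [add_mul, mul_add, map_add, hx, hy]; ring) (fun j b => ?_) b
  rw [← G.mul i j a b, G.partL_hom, G.mul, Derivation.leibniz, map_add, G.partL_hom, G.partL_hom,
    smul_eq_mul, smul_eq_mul]
  have e1 : i + j + d = i + (j + d) := by ring
  have e2 : i + j + d = j + (i + d) := by ring
  congr 1
  · rw [e1, G.comp_hom_mul]
  · rw [e2, G.comp_hom_mul]

/-- the homogeneous part of degree `d` of a derivation -/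
noncomputable def part : Derivation ℂ A A :=
  Derivation.mk' (G.partL D d) (fun a b => by
    rw [G.partL_leibniz, smul_eq_mul, smul_eq_mul])

theorem part_hom (i : ℤ) (a : A) :
    G.part D d (G.comp i a) = G.comp (i + d) (D (G.comp i a)) := G.part0_hom D d i a

/-- `D` has degree at most `d` -/
def DegLE : Prop := ∀ i a k, i + d < k → G.comp k (D (G.comp i a)) = 0

/-- the element `a` has degree at most `m` -/
def ElLE (a : A) (m : ℤ) : Prop := ∀ k, m < k → G.comp k a = 0

variable {D d}

theorem step (hD : G.DegLE D d) {a : A} {m : ℤ} (ha : G.ElLE a m) :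
    G.ElLE (D a) (m + d) ∧ G.comp (m + d) (D a) = G.part D d (G.comp m a) := by
  have hs : (G.fin a).toFinset.sum (fun i => G.comp i a) = a := by
    conv_rhs => rw [← G.sum a]
    rw [finsum_eq_sum_of_support_subset _ (s := (G.fin a).toFinset) (fun i hi => by simpa using hi)]
  have hle : ∀ i ∈ (G.fin a).toFinset, i ≤ m := by
    intro i hi
    by_contra hlt
    rw [Set.Finite.mem_toFinset] at hi
    exact hi (ha i (by omega))
  have key : ∀ k, G.comp k (D a) = (G.fin a).toFinset.sum (fun i => G.comp k (D (G.comp i a))) := by
    intro k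
    conv_lhs => rw [← hs]
    rw [map_sum, map_sum]
  constructor
  · intro k hk
    rw [key]
    exact Finset.sum_eq_zero fun i hi => hD i a k (by have := hle i hi; omega)
  · rw [key, part_hom]
    by_cases hm : m ∈ (G.fin a).toFinset
    · rw [Finset.sum_eq_single_of_mem m hm]
      intro i hi him
      exact hD i a _ (by have := hle i hi; omega)
    · have h0 : G.comp m a = 0 := by
        by_contra h
        exact hm (by rw [Set.Finite.mem_toFinset]; exact h)
      rw [h0, map_zero, map_zero]
      refine Finset.sum_eq_zero fun i hi => hD i a _ ?_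
      have := hle i hi
      have : i ≠ m := fun h => hm (h ▸ hi)
      omega

theorem iter_step (hD : G.DegLE D d) {a : A} {m : ℤ} (ha : G.ElLE a m) (n : ℕ) :
    G.ElLE ((⇑D)^[n] a) (m + n * d) ∧
      G.comp (m + n * d) ((⇑D)^[n] a) = (⇑(G.part D d))^[n] (G.comp m a) := by
  induction n with
  | zero => simpa using ha
  | succ n ih =>
    have h := G.step hD ih.1
    have e : m + n * d + d = m + (n + 1 : ℕ) * d := by push_cast; ring
    rw [e] at h
    rw [Function.iterate_succ_apply', Function.iterate_succ_apply']
    exact ⟨h.1, by rw [h.2, ih.2]⟩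

theorem elLE_comp (i : ℤ) (a : A) : G.ElLE (G.comp i a) i := by
  intro k hk
  rw [G.idem, if_neg (by omega)]

/-- the top homogeneous part of a locally nilpotent derivation is locally nilpotent -/
theorem part_LN (hD : G.DegLE D d) (hN : LN D) : LN (G.part D d) := by
  intro a
  refine G.ind (P := fun a => ∃ n : ℕ, (⇑(G.part D d))^[n] a = 0) ⟨0, rfl⟩ ?_ ?_ a
  · rintro a b ⟨n, hn⟩ ⟨m, hm⟩
    refine ⟨max n m, ?_⟩
    rw [iter_add, iter_eq_zero_of_le _ hn (le_max_left _ _),
      iter_eq_zero_of_le _ hm (le_max_right _ _), add_zero]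
  · intro i a
    obtain ⟨n, hn⟩ := hN (G.comp i a)
    refine ⟨n, ?_⟩
    have h := (G.iter_step hD (G.elLE_comp i a) n).2
    rw [hn, map_zero, G.idem, if_pos rfl] at h
    exact h.symm

/-- if all parts of degree `> e` and the part of degree `e + 1`.. vanish: lowering the degree -/
theorem degLE_pred (hD : G.DegLE D d) (h0 : G.part D d = 0) : G.DegLE D (d - 1) := by
  intro i a k hk
  rcases eq_or_lt_of_le (show i + d ≤ k by omega) with h | h
  · subst h
    rw [← G.part_hom, h0]
    rfl
  · exact hD i a k h

end Gr

end Crest.Agent.DW
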