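import Crest.Agent.DW.RModel

/-! K-lemma of row 268: leading coefficients of the elements of `ker ev` vanish on both lines. -/

set_option autoImplicit false

namespace Crest.Agent.DW

open MvPolynomial

theorem eval_thR (u v : ℂ) (F : P3) :
    eval ![u, v] (thR F) = eval ![u * v, u * (u * v - 1), v * (u * v + 1)] F := by
  have h : (aeval (R := ℂ) ![u, v]).comp thR
      = aeval (R := ℂ) ![u * v, u * (u * v - 1), v * (u * v + 1)] := by
    apply MvPolynomial.algHom_ext
    intro i
    fin_cases i <;> simp [thR]
  have := congrArg (fun φ : P3 →ₐ[ℂ] ℂ => φ F) h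
  simpa [MvPolynomial.coe_aeval_eq_eval] using this

theorem eval_aeval3 (P A B : Polynomial ℂ) (t : ℂ) (F : P3) :
    Polynomial.eval t (aeval ![P, A, B] F) = eval ![P.eval t, A.eval t, B.eval t] F := by
  have h : (Polynomial.aeval (R := ℂ) t).comp (aeval (R := ℂ) ![P, A, B])
      = aeval (R := ℂ) ![P.eval t, A.eval t, B.eval t] := by
    apply MvPolynomial.algHom_ext
    intro i
    fin_cases i <;> simp [Polynomial.coe_aeval_eq_eval]
  have := congrArg (fun φ : P3 →ₐ[ℂ] ℂ => φ F) h
  simpa [MvPolynomial.coe_aeval_eq_eval, Polynomial.coe_aeval_eq_eval] using this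

theorem K0 (G : Polynomial RR) (h : Polynomial.eval₂ RR.val.toRingHom (X 0 + X 1) G = 0)
    (P A B M : Polynomial ℂ) (u v : ℂ → ℂ)
    (hP : ∀ t, t ≠ 0 → u t * v t = P.eval t)
    (hA : ∀ t, t ≠ 0 → u t * (u t * v t - 1) = A.eval t)
    (hB : ∀ t, t ≠ 0 → v t * (u t * v t + 1) = B.eval t)
    (hM : ∀ t, t ≠ 0 → t * (u t + v t) = M.eval t)
    (hM0 : M.eval 0 = 1) (F : P3) (hF : tr F = G.leadingCoeff) :
    eval ![P.eval 0, A.eval 0, B.eval 0] F = 0 := by
  classical
  set n := G.natDegree with hn
  -- representatives of the coefficients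
  have hex : ∀ i, ∃ f : P3, tr f = G.coeff i := fun i => tr_surj _
  choose f0 hf0 using hex
  let f : ℕ → P3 := fun i => if i = n then F else f0 i
  have hfn : f n = F := by simp [f]
  have hf : ∀ i, tr (f i) = G.coeff i := by
    intro i
    by_cases hi : i = n
    · rw [hi, hfn, hF]; rfl
    · simp only [f, if_neg hi, hf0]
  let H : ℕ → Polynomial ℂ := fun i => aeval ![P, A, B] (f i)
  let Q : Polynomial ℂ := ∑ i ∈ Finset.range (n + 1), H i * Polynomial.X ^ (n - i) * M ^ i
  have hQ : ∀ t : ℂ, t ≠ 0 → Q.eval t = 0 := by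
    intro t ht
    have h1 := congrArg (eval ![u t, v t]) h
    rw [Polynomial.eval₂_eq_sum_range, map_sum, map_zero] at h1
    have h2 : ∀ i, eval ![u t, v t] (RR.val.toRingHom (G.coeff i) * (X 0 + X 1) ^ i)
        = (H i).eval t * (u t + v t) ^ i := by
      intro i
      rw [map_mul, map_pow]
      have e1 : (RR.val.toRingHom (G.coeff i) : U) = thR (f i) := by
        rw [← hf i]; rfl
      rw [e1, eval_thR]
      have e2 : (H i).eval t = eval ![P.eval t, A.eval t, B.eval t] (f i) := eval_aeval3 P A B t (f i)
      rw [e2, hA t ht, hB t ht, hP t ht]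
      simp
    simp_rw [h2] at h1
    have h3 : Q.eval t = t ^ n * ∑ i ∈ Finset.range (n + 1), (H i).eval t * (u t + v t) ^ i := by
      simp only [Q, Polynomial.eval_finsetSum, Polynomial.eval_mul, Polynomial.eval_pow,
        Polynomial.eval_X, Finset.mul_sum]
      apply Finset.sum_congr rfl
      intro i hi
      have hi' : i ≤ n := Nat.lt_succ_iff.mp (Finset.mem_range.mp hi)
      rw [← hM t ht, mul_pow]
      have : t ^ n = t ^ (n - i) * t ^ i := by rw [← pow_add, Nat.sub_add_cancel hi']
      rw [this]; ring
    rw [h3, h1, mul_zero]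
  have hXQ : Polynomial.X * Q = 0 := by
    apply Polynomial.funext
    intro t
    by_cases ht : t = 0
    · simp [ht]
    · simp [hQ t ht]
  have hQ0 : Q = 0 := by
    rcases mul_eq_zero.mp hXQ with h' | h'
    · exact absurd h' Polynomial.X_ne_zero
    · exact h'
  have h4 : Q.eval 0 = (H n).eval 0 := by
    simp only [Q, Polynomial.eval_finsetSum, Polynomial.eval_mul, Polynomial.eval_pow,
      Polynomial.eval_X, hM0, one_pow, mul_one]
    rw [Finset.sum_range_succ]
    rw [Finset.sum_eq_zero]
    · simp
    · intro i hi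
      have hi' : i < n := Finset.mem_range.mp hi
      rw [zero_pow (by omega), mul_zero]
  rw [hQ0, Polynomial.eval_zero] at h4
  have e3 : (H n).eval 0 = eval ![P.eval 0, A.eval 0, B.eval 0] (f n) := eval_aeval3 P A B 0 (f n)
  rw [hfn] at e3
  rw [← e3, ← h4]

theorem K1 (G : Polynomial RR) (h : Polynomial.eval₂ RR.val.toRingHom (X 0 + X 1) G = 0) :
    OnL1 G.leadingCoeff ∧ OnL2 G.leadingCoeff := by
  constructor
  · intro F hF a
    have := K0 G h (1 + Polynomial.C a * Polynomial.X) (Polynomial.C a)
      (Polynomial.X * (1 + Polynomial.C a * Polynomial.X) * (2 + Polynomial.C a * Polynomial.X))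
      (1 + Polynomial.X ^ 2 * (1 + Polynomial.C a * Polynomial.X))
      (fun t => t⁻¹) (fun t => t * (1 + a * t))
      (by intro t ht; simp; field_simp)
      (by intro t ht; simp only [Polynomial.eval_mul, Polynomial.eval_add, Polynomial.eval_X,
            Polynomial.eval_C, Polynomial.eval_one, Polynomial.eval_ofNat]; field_simp; ring)
      (by intro t ht; simp only [Polynomial.eval_mul, Polynomial.eval_add, Polynomial.eval_X,
            Polynomial.eval_C, Polynomial.eval_one, Polynomial.eval_ofNat]; field_simp; ring)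
      (by intro t ht; simp; field_simp)
      (by simp) F hF
    simpa using this
  · intro F hF b
    have := K0 G h (-1 + Polynomial.C b * Polynomial.X)
      (Polynomial.X * (-1 + Polynomial.C b * Polynomial.X) * (-2 + Polynomial.C b * Polynomial.X))
      (Polynomial.C b)
      (1 + Polynomial.X ^ 2 * (-1 + Polynomial.C b * Polynomial.X))
      (fun t => t * (-1 + b * t)) (fun t => t⁻¹)
      (by intro t ht; simp; field_simp)
      (by intro t ht; simp only [Polynomial.eval_mul, Polynomial.eval_add, Polynomial.eval_X,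
            Polynomial.eval_C, Polynomial.eval_one, Polynomial.eval_ofNat, Polynomial.eval_neg];
          field_simp; ring)
      (by intro t ht; simp only [Polynomial.eval_mul, Polynomial.eval_add, Polynomial.eval_X,
            Polynomial.eval_C, Polynomial.eval_one, Polynomial.eval_ofNat, Polynomial.eval_neg];
          field_simp; ring)
      (by intro t ht; simp only [Polynomial.eval_mul, Polynomial.eval_add, Polynomial.eval_X,
            Polynomial.eval_C, Polynomial.eval_one, Polynomial.eval_pow, Polynomial.eval_neg];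
          field_simp; ring)
      (by simp) F hF
    simpa using this

end Crest.Agent.DW
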