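import Mathlib.RingTheory.Derivation.Basic
import Mathlib.Data.Nat.Choose.Basic
import Mathlib.Data.Complex.Basic
import Mathlib.Tactic

/-! Basic facts on locally nilpotent derivations of a domain of characteristic zero. -/

set_option autoImplicit false

namespace Crest.Agent.DW

variable {A : Type*} [CommRing A] [Algebra ℂ A]

/-- local nilpotency of a derivation -/
def LN (D : Derivation ℂ A A) : Prop := ∀ a : A, ∃ n : ℕ, (⇑D)^[n] a = 0

theorem iter_zero (D : Derivation ℂ A A) (n : ℕ) : (⇑D)^[n] (0 : A) = 0 := by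
  induction n with
  | zero => rfl
  | succ n ih => rw [Function.iterate_succ_apply, map_zero, ih]

theorem iter_add (D : Derivation ℂ A A) (n : ℕ) (a b : A) :
    (⇑D)^[n] (a + b) = (⇑D)^[n] a + (⇑D)^[n] b := by
  induction n generalizing a b with
  | zero => rfl
  | succ n ih => simp only [Function.iterate_succ_apply, map_add, ih]

theorem iter_mul_ker (D : Derivation ℂ A A) {a : A} (ha : D a = 0) (n : ℕ) (b : A) :
    (⇑D)^[n] (a * b) = a * (⇑D)^[n] b := by
  induction n generalizing b with
  | zero => rfl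
  | succ n ih =>
    rw [Function.iterate_succ_apply, Derivation.leibniz, ha, smul_zero, add_zero, smul_eq_mul, ih,
      Function.iterate_succ_apply]

theorem iter_eq_zero_of_le (D : Derivation ℂ A A) {a : A} {n m : ℕ} (h : (⇑D)^[n] a = 0)
    (hnm : n ≤ m) : (⇑D)^[m] a = 0 := by
  obtain ⟨k, rfl⟩ := Nat.exists_eq_add_of_le hnm
  rw [Nat.add_comm, Function.iterate_add_apply, h, iter_zero]

/-- (L1) the top iterate of a product -/
theorem iter_mul_top (D : Derivation ℂ A A) (N : ℕ) :
    ∀ (n m : ℕ) (a b : A), n + m = N → (⇑D)^[n + 1] a = 0 → (⇑D)^[m + 1] b = 0 →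
      (⇑D)^[n + m] (a * b) = ((n + m).choose n : A) * ((⇑D)^[n] a * (⇑D)^[m] b) := by
  induction N with
  | zero =>
    intro n m a b h ha hb
    obtain ⟨rfl, rfl⟩ : n = 0 ∧ m = 0 := by omega
    simp
  | succ N ih =>
    intro n m a b h ha hb
    rcases n with _ | n
    · have ha' : D a = 0 := by simpa using ha
      rw [Nat.zero_add, iter_mul_ker D ha']
      simp
    rcases m with _ | m
    · have hb' : D b = 0 := by simpa using hb
      rw [Nat.add_zero, mul_comm a b, iter_mul_ker D hb']
      simp [mul_comm]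
    have e1 : (⇑D)^[(n + 1) + m] (a * D b) =
        (((n + 1) + m).choose (n + 1) : A) * ((⇑D)^[n + 1] a * (⇑D)^[m] (D b)) :=
      ih (n + 1) m a (D b) (by omega) ha (by rw [← Function.iterate_succ_apply]; exact hb)
    have e2 : (⇑D)^[n + (m + 1)] (D a * b) =
        ((n + (m + 1)).choose n : A) * ((⇑D)^[n] (D a) * (⇑D)^[m + 1] b) :=
      ih n (m + 1) (D a) b (by omega) (by rw [← Function.iterate_succ_apply]; exact ha) hb
    have e0 : (⇑D)^[n + 1 + (m + 1)] (a * b) =
        (⇑D)^[(n + 1) + m] (a * D b) + (⇑D)^[n + (m + 1)] (D a * b) := by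
      have : n + 1 + (m + 1) = (n + 1 + m) + 1 := by omega
      rw [this, Function.iterate_succ_apply, Derivation.leibniz, iter_add, smul_eq_mul,
        smul_eq_mul, mul_comm b (D a)]
      have : n + 1 + m = n + (m + 1) := by omega
      rw [this]
    rw [e0, e1, e2, ← Function.iterate_succ_apply, ← Function.iterate_succ_apply]
    have hc : (n + 1 + (m + 1)).choose (n + 1) =
        (n + (m + 1)).choose n + ((n + 1) + m).choose (n + 1) := by
      have h1 : n + 1 + (m + 1) = (n + (m + 1)) + 1 := by omega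
      have h2 : (n + 1) + m = n + (m + 1) := by omega
      rw [h1, h2, Nat.choose_succ_succ]
    rw [hc]
    push_cast
    ring

variable [IsDomain A]

theorem charZero : CharZero A := by
  exact charZero_of_injective_algebraMap (algebraMap ℂ A).injective

/-- degree of a nonzero element -/
theorem exists_deg {D : Derivation ℂ A A} (hD : LN D) {a : A} (ha : a ≠ 0) :
    ∃ n : ℕ, (⇑D)^[n] a ≠ 0 ∧ (⇑D)^[n + 1] a = 0 := by
  classical
  have h := hD a
  have hs := Nat.find_spec h
  have hm := fun k hk => Nat.find_min h (m := k) hk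
  rcases hk : Nat.find h with _ | k
  · rw [hk] at hs
    exact absurd hs ha
  · rw [hk] at hs
    exact ⟨k, hm k (by omega), hs⟩

/-- the top iterate of a product does not vanish -/
theorem iter_mul_ne {D : Derivation ℂ A A} {n m : ℕ} {a b : A}
    (ha : (⇑D)^[n] a ≠ 0) (ha' : (⇑D)^[n + 1] a = 0) (hb : (⇑D)^[m] b ≠ 0)
    (hb' : (⇑D)^[m + 1] b = 0) : (⇑D)^[n + m] (a * b) ≠ 0 := by
  rw [iter_mul_top D (n + m) n m a b rfl ha' hb']
  have := charZero (A := A)
  refine mul_ne_zero ?_ (mul_ne_zero ha hb)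
  exact_mod_cast (Nat.choose_pos (Nat.le_add_right n m)).ne'

/-- (L2) if `D a` is a multiple of `a` then `D a = 0` -/
theorem eq_zero_of_dvd {D : Derivation ℂ A A} (hD : LN D) {a b : A} (h : D a = a * b) :
    D a = 0 := by
  by_contra hne
  have ha : a ≠ 0 := fun h0 => hne (by rw [h0, map_zero])
  have hb : b ≠ 0 := fun h0 => hne (by rw [h, h0, mul_zero])
  obtain ⟨n, hn, hn'⟩ := exists_deg hD ha
  obtain ⟨m, hm, hm'⟩ := exists_deg hD hb
  have h1 := iter_mul_ne hn hn' hm hm'
  rw [← h, ← Function.iterate_succ_apply] at h1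
  exact h1 (iter_eq_zero_of_le D hn' (by omega))

/-- (L3) the kernel is factorially closed -/
theorem ker_of_mul {D : Derivation ℂ A A} (hD : LN D) {a b : A} (h : D (a * b) = 0)
    (hab : a * b ≠ 0) : D a = 0 := by
  obtain ⟨n, hn, hn'⟩ := exists_deg hD (left_ne_zero_of_mul hab)
  obtain ⟨m, hm, hm'⟩ := exists_deg hD (right_ne_zero_of_mul hab)
  have h1 := iter_mul_ne hn hn' hm hm'
  rcases n with _ | n
  · simpa using hn'
  · exfalso
    apply h1
    have : n + 1 + m = (n + m) + 1 := by omega
    rw [this, Function.iterate_succ_apply, h, iter_zero]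

end Crest.Agent.DW
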