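import Mathlib

/-!
Row 268 (S0408): the leading-part step.  A nonzero locally nilpotent derivation of `R[X]`
preserving an ideal `I` with `I ∩ R = 0` has a nonzero locally nilpotent leading part on `R`.
-/

set_option autoImplicit false

open Polynomial

namespace Crest.Agent.DW

section Ops

variable {R : Type*} [CommRing R]

/-- `m`-fold application of the leading operator, starting in degree `i`. -/
def ldU (δ : R → R) (c : R) (N : ℕ) : ℕ → ℕ → R → R
  | 0, _, r => r
  | m + 1, i, r => ldU δ c N m (i + N) (δ r + (i : R) * c * r)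

theorem ldU_succ (δ : R → R) (c : R) (N m i : ℕ) (r : R) :
    ldU δ c N (m + 1) i r = ldU δ c N m (i + N) (δ r + (i : R) * c * r) := rfl

theorem ldU_zero_arg (δ : R → R) (c : R) (N : ℕ) (h0 : δ 0 = 0) (m : ℕ) :
    ∀ i, ldU δ c N m i 0 = 0 := by
  induction m with
  | zero => intro i; rfl
  | succ m ih => intro i; rw [ldU_succ, h0]; simpa using ih (i + N)

theorem ldU_add_arg (δ : R → R) (c : R) (N : ℕ) (ha : ∀ r s, δ (r + s) = δ r + δ s) (m : ℕ) :
    ∀ i r s, ldU δ c N m i (r + s) = ldU δ c N m i r + ldU δ c N m i s := by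
  induction m with
  | zero => intro i r s; rfl
  | succ m ih =>
    intro i r s
    rw [ldU_succ, ldU_succ, ldU_succ, ← ih, ha]
    congr 1
    ring

theorem ldU_add (δ : R → R) (c : R) (N : ℕ) (a : ℕ) :
    ∀ b i r, ldU δ c N (a + b) i r = ldU δ c N b (i + a * N) (ldU δ c N a i r) := by
  induction a with
  | zero => intro b i r; simp [ldU]
  | succ a ih =>
    intro b i r
    have e1 : a + 1 + b = (a + b) + 1 := by ring
    rw [e1, ldU_succ, ih, ldU_succ]
    congr 1
    ring

theorem ldU_top (δ : R → R) (c : R) (N : ℕ) (ha : ∀ r s, δ (r + s) = δ r + δ s)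
    (hl : ∀ r s, δ (r * s) = r * δ s + s * δ r) (k : ℕ) :
    ∀ n m i i' r r', n + m = k → ldU δ c N (n + 1) i r = 0 → ldU δ c N (m + 1) i' r' = 0 →
      ldU δ c N k (i + i') (r * r') =
        (Nat.choose k n : R) * (ldU δ c N n i r * ldU δ c N m i' r') := by
  have h0 : δ 0 = 0 := by
    have := ha 0 0
    simp at this
    exact this
  induction k with
  | zero =>
    intro n m i i' r r' hk _ _
    have hn : n = 0 := by omega
    have hm : m = 0 := by omega
    subst hn; subst hm
    simp [ldU]
  | succ k ih =>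
    intro n m i i' r r' hk hr hr'
    have key : ldU δ c N (k + 1) (i + i') (r * r') =
        ldU δ c N k (i + (i' + N)) (r * (δ r' + (i' : R) * c * r')) +
        ldU δ c N k ((i + N) + i') ((δ r + (i : R) * c * r) * r') := by
      rw [ldU_succ, show i + (i' + N) = i + i' + N by ring, show (i + N) + i' = i + i' + N by ring,
        ← ldU_add_arg δ c N ha, hl]
      congr 1
      push_cast
      ring
    rw [key]
    rcases Nat.eq_zero_or_pos n with hn | hn
    · subst hn
      have hm : m = k + 1 := by omega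
      subst hm
      have hz : δ r + (i : R) * c * r = 0 := by
        simpa [ldU] using hr
      rw [hz, zero_mul, ldU_zero_arg δ c N h0, add_zero]
      rw [ih 0 k i (i' + N) r _ (by omega) hr (by rw [← ldU_succ]; exact hr')]
      simp only [Nat.choose_zero_right, Nat.cast_one, one_mul]
      rw [ldU_succ]
    · rcases Nat.eq_zero_or_pos m with hm | hm
      · subst hm
        have hn' : n = k + 1 := by omega
        subst hn'
        have hz : δ r' + (i' : R) * c * r' = 0 := by
          simpa [ldU] using hr'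
        rw [hz, mul_zero, ldU_zero_arg δ c N h0, zero_add]
        rw [ih k 0 (i + N) i' _ r' (by omega) (by rw [← ldU_succ]; exact hr) hr']
        simp only [Nat.choose_self, Nat.cast_one, one_mul]
        rw [ldU_succ δ c N k i r]
      · obtain ⟨n', rfl⟩ : ∃ n', n = n' + 1 := ⟨n - 1, by omega⟩
        obtain ⟨m', rfl⟩ : ∃ m', m = m' + 1 := ⟨m - 1, by omega⟩
        rw [ih (n' + 1) m' i (i' + N) r _ (by omega) hr (by rw [← ldU_succ]; exact hr'),
          ih n' (m' + 1) (i + N) i' _ r' (by omega) (by rw [← ldU_succ]; exact hr) hr',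
          ← ldU_succ δ c N m' i' r', ← ldU_succ δ c N n' i r, Nat.choose_succ_succ]
        push_cast
        ring

end Ops

section Main

variable {R : Type*} [CommRing R] [Algebra ℂ R]

/-- the coefficient derivation -/
noncomputable def ldD (Δ : Derivation ℂ R[X] R[X]) (N : ℕ) : Derivation ℂ R R :=
  Derivation.mk'
    { toFun := fun r => (Δ (C r)).coeff N
      map_add' := by intro r s; simp
      map_smul' := by
        intro z r
        have : (C (z • r) : R[X]) = z • C r := by
          rw [Polynomial.smul_C]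
        change (Δ (C (z • r))).coeff N = z • (Δ (C r)).coeff N
        rw [this, Derivation.map_smul, coeff_smul] }
    (by
      intro r s
      change (Δ (C (r * s))).coeff N = r • (Δ (C s)).coeff N + s • (Δ (C r)).coeff N
      rw [C_mul, Derivation.leibniz, smul_eq_mul, smul_eq_mul, coeff_add, coeff_C_mul, coeff_C_mul,
        smul_eq_mul, smul_eq_mul])

theorem ldD_apply (Δ : Derivation ℂ R[X] R[X]) (N : ℕ) (r : R) :
    ldD Δ N r = (Δ (C r)).coeff N := rfl

theorem ld_mono (Δ : Derivation ℂ R[X] R[X]) (N : ℕ)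
    (h1 : ∀ r : R, (Δ (C r)).natDegree ≤ N) (h2 : (Δ X).natDegree ≤ N + 1) (r : R) (i : ℕ) :
    (Δ (C r * X ^ i)).natDegree ≤ i + N ∧
      (Δ (C r * X ^ i)).coeff (i + N) = ldD Δ N r + (i : R) * (Δ X).coeff (N + 1) * r := by
  induction i with
  | zero =>
    constructor
    · simpa using h1 r
    · simp [ldD_apply]
  | succ i ih =>
    have e : Δ (C r * X ^ (i + 1)) = C r * (X ^ i * Δ X) + X * Δ (C r * X ^ i) := by
      rw [pow_succ, ← mul_assoc, Derivation.leibniz]
      simp only [smul_eq_mul]
      ring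
    constructor
    · rw [e]
      refine (natDegree_add_le _ _).trans (max_le ?_ ?_)
      · refine (natDegree_C_mul_le _ _).trans ((natDegree_mul_le).trans ?_)
        have := natDegree_X_pow_le (R := R) i
        omega
      · refine (natDegree_mul_le).trans ?_
        have := natDegree_X_le (R := R)
        have := ih.1
        omega
    · rw [e, coeff_add, coeff_C_mul]
      have e1 : i + 1 + N = (N + 1) + i := by ring
      have e2 : i + 1 + N = (i + N) + 1 := by ring
      rw [e1, coeff_X_pow_mul, ← e1, e2, coeff_X_mul, ih.2]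
      push_cast
      ring

theorem ld_coeff (Δ : Derivation ℂ R[X] R[X]) (N : ℕ)
    (h1 : ∀ r : R, (Δ (C r)).natDegree ≤ N) (h2 : (Δ X).natDegree ≤ N + 1) (F : R[X]) (n : ℕ)
    (hF : F.natDegree ≤ n) :
    (Δ F).natDegree ≤ n + N ∧
      (Δ F).coeff (n + N) = ldD Δ N (F.coeff n) + (n : R) * (Δ X).coeff (N + 1) * F.coeff n := by
  have e : F = ∑ i ∈ Finset.range (n + 1), C (F.coeff i) * X ^ i := by
    conv_lhs => rw [F.as_sum_range' (n + 1) (by omega)]
    simp [C_mul_X_pow_eq_monomial]
  have e2 : Δ F = ∑ i ∈ Finset.range (n + 1), Δ (C (F.coeff i) * X ^ i) := by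
    conv_lhs => rw [e]
    rw [map_sum]
  constructor
  · rw [e2]
    refine natDegree_sum_le_of_forall_le _ _ ?_
    intro i hi
    have := (ld_mono Δ N h1 h2 (F.coeff i) i).1
    have := Finset.mem_range.1 hi
    omega
  · rw [e2, finsetSum_coeff, Finset.sum_eq_single n]
    · exact (ld_mono Δ N h1 h2 (F.coeff n) n).2
    · intro i hi hin
      apply coeff_eq_zero_of_natDegree_lt
      have := (ld_mono Δ N h1 h2 (F.coeff i) i).1
      have := Finset.mem_range.1 hi
      omega
    · intro h
      exact absurd (Finset.mem_range.2 (Nat.lt_succ_self n)) h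

theorem ld_iter (Δ : Derivation ℂ R[X] R[X]) (N : ℕ)
    (h1 : ∀ r : R, (Δ (C r)).natDegree ≤ N) (h2 : (Δ X).natDegree ≤ N + 1) (m : ℕ) :
    ∀ (F : R[X]) (n : ℕ), F.natDegree ≤ n →
      ((⇑Δ)^[m] F).coeff (n + m * N) =
        ldU (ldD Δ N) ((Δ X).coeff (N + 1)) N m n (F.coeff n) := by
  induction m with
  | zero => intro F n _; simp [ldU]
  | succ m ih =>
    intro F n hF
    obtain ⟨ha, hb⟩ := ld_coeff Δ N h1 h2 F n hF
    rw [Function.iterate_succ_apply, ldU_succ, ← hb, ← ih (Δ F) (n + N) ha]
    congr 1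
    ring

omit [Algebra ℂ R] in
theorem ld_find (f : ℕ → R) (h0 : f 0 ≠ 0) (h : ∃ n, f n = 0) :
    ∃ n, f n ≠ 0 ∧ f (n + 1) = 0 := by
  classical
  have hs := Nat.find_spec h
  have hm := fun k hk => Nat.find_min h (m := k) hk
  rcases Nat.eq_zero_or_pos (Nat.find h) with hz | hp
  · rw [hz] at hs
    exact absurd hs h0
  · refine ⟨Nat.find h - 1, hm _ (by omega), ?_⟩
    rw [show Nat.find h - 1 + 1 = Nat.find h by omega]
    exact hs

theorem ld_c_zero [IsDomain R] (Δ : Derivation ℂ R[X] R[X]) (hn : ∀ F, ∃ n, (⇑Δ)^[n] F = 0)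
    (N : ℕ) (h1 : ∀ r : R, (Δ (C r)).natDegree ≤ N) (h2 : (Δ X).natDegree ≤ N + 1) :
    (Δ X).coeff (N + 1) = 0 := by
  have hch : CharZero R := charZero_of_injective_algebraMap (algebraMap ℂ R).injective
  set c := (Δ X).coeff (N + 1) with hc
  set δ := ldD Δ N with hδ
  have hnil : ∀ (i : ℕ) (r : R), ∃ m, ldU δ c N m i r = 0 := by
    intro i r
    obtain ⟨m, hm⟩ := hn (C r * X ^ i)
    refine ⟨m, ?_⟩
    have hdeg : (C r * X ^ i : R[X]).natDegree ≤ i := natDegree_C_mul_X_pow_le r i
    have := ld_iter Δ N h1 h2 m (C r * X ^ i) i hdeg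
    rw [hm] at this
    simpa using this.symm
  have ha : ∀ r s, δ (r + s) = δ r + δ s := fun r s => map_add _ _ _
  have hl : ∀ r s, δ (r * s) = r * δ s + s * δ r := by
    intro r s
    rw [Derivation.leibniz, smul_eq_mul, smul_eq_mul]
  by_contra hne
  obtain ⟨n, hn1, hn2⟩ := ld_find (fun m => ldU δ c N m 1 (1 : R)) (by simp [ldU])
    (hnil 1 1)
  obtain ⟨m, hm1, hm2⟩ := ld_find (fun m => ldU δ c N m N c) (by simpa [ldU] using hne)
    (hnil N c)
  have htop := ldU_top δ c N ha hl (n + m) n m 1 N 1 c rfl hn2 hm2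
  have h3 : ldU δ c N (n + m + 1) 1 (1 : R) = 0 := by
    rw [show n + m + 1 = (n + 1) + m by ring, ldU_add]
    rw [hn2]
    exact ldU_zero_arg δ c N (map_zero _) m _
  rw [ldU_succ] at h3
  have h4 : δ 1 + ((1 : ℕ) : R) * c * 1 = 1 * c := by
    simp
  rw [h4, htop] at h3
  have hcz : ((n + m).choose n : R) ≠ 0 := by
    exact_mod_cast (Nat.choose_pos (Nat.le_add_right n m)).ne'
  rcases mul_eq_zero.1 h3 with h | h
  · exact hcz h
  · rcases mul_eq_zero.1 h with h | h
    · exact hn1 h
    · exact hm1 h

omit [Algebra ℂ R] in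
theorem ldU_eq_iter (δ : R → R) (N m : ℕ) : ∀ i r, ldU δ 0 N m i r = δ^[m] r := by
  induction m with
  | zero => intro i r; rfl
  | succ m ih =>
    intro i r
    rw [ldU_succ, ih, Function.iterate_succ_apply]
    simp

/-- THE LEADING PART STEP. -/
theorem lead_part [IsDomain R] [Algebra.FiniteType ℂ R] (Δ : Derivation ℂ R[X] R[X])
    (hn : ∀ F, ∃ n, (⇑Δ)^[n] F = 0) (h0 : Δ ≠ 0) (I : Ideal R[X]) (hI : ∀ F ∈ I, Δ F ∈ I)
    (hR : ∀ r : R, (C r : R[X]) ∈ I → r = 0) (a b : R) (ha : a ≠ 0)
    (hF : (C a * X + C b : R[X]) ∈ I) (J : Ideal R) (hJ : ∀ F ∈ I, F.leadingCoeff ∈ J) :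
    ∃ δ : Derivation ℂ R R, (∀ r, ∃ n, (⇑δ)^[n] r = 0) ∧ δ ≠ 0 ∧ δ a ∈ J := by
  classical
  -- a bound exists
  have hex : ∃ N : ℕ, (∀ r : R, (Δ (C r)).natDegree ≤ N) ∧ (Δ X).natDegree ≤ N + 1 := by
    obtain ⟨s, hs⟩ := (Algebra.FiniteType.out : (⊤ : Subalgebra ℂ R).FG)
    set M := s.sup (fun r => (Δ (C r)).natDegree) with hM
    refine ⟨M + (Δ X).natDegree, ?_, by omega⟩
    have hall : ∀ r : R, (Δ (C r)).natDegree ≤ M := by
      intro r
      have hr : r ∈ Algebra.adjoin ℂ (s : Set R) := by rw [hs]; trivial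
      induction hr using Algebra.adjoin_induction with
      | mem x hx => exact Finset.le_sup (f := fun r => (Δ (C r)).natDegree) hx
      | algebraMap z =>
        have : (C (algebraMap ℂ R z) : R[X]) = algebraMap ℂ R[X] z := by
          rw [Polynomial.algebraMap_apply]
        rw [this, Derivation.map_algebraMap]
        simp
      | add x y _ _ hx hy =>
        rw [C_add, map_add]
        exact (natDegree_add_le _ _).trans (max_le hx hy)
      | mul x y _ _ hx hy =>
        rw [C_mul, Derivation.leibniz, smul_eq_mul, smul_eq_mul]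
        refine (natDegree_add_le _ _).trans (max_le ?_ ?_)
        · exact (natDegree_C_mul_le _ _).trans hy
        · exact (natDegree_C_mul_le _ _).trans hx
    intro r
    exact (hall r).trans (Nat.le_add_right _ _)
  obtain ⟨h1, h2⟩ := Nat.find_spec hex
  have hmin := fun k hk => Nat.find_min hex (m := k) hk
  set N := Nat.find hex with hN
  have hc := ld_c_zero Δ hn N h1 h2
  have hδnil : ∀ r, ∃ n, (⇑(ldD Δ N))^[n] r = 0 := by
    intro r
    obtain ⟨m, hm⟩ := hn (C r)
    refine ⟨m, ?_⟩
    have := ld_iter Δ N h1 h2 m (C r) 0 (by simp)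
    rw [hm, hc, ldU_eq_iter] at this
    simpa using this.symm
  refine ⟨ldD Δ N, hδnil, ?_, ?_⟩
  · intro hz
    have hz' : ∀ r, (Δ (C r)).coeff N = 0 := by
      intro r
      have : ldD Δ N r = 0 := by rw [hz]; rfl
      rwa [ldD_apply] at this
    rcases Nat.eq_zero_or_pos N with hN0 | hNp
    · -- degree -1 part
      rw [hN0] at h1 h2 hz' hc
      have hCr : ∀ r : R, Δ (C r) = 0 := by
        intro r
        have := eq_C_of_natDegree_le_zero (h1 r)
        rw [this, hz' r, C_0]
      have hX : Δ X = C ((Δ X).coeff 0) := by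
        have h3 : (Δ X).natDegree ≤ 0 := by
          by_contra hcon
          have h4 : (Δ X).natDegree = 1 := by omega
          have h5 : (Δ X).leadingCoeff = 0 := by
            rw [leadingCoeff, h4]; exact hc
          rw [leadingCoeff_eq_zero] at h5
          rw [h5] at h4
          simp at h4
        exact eq_C_of_natDegree_le_zero h3
      have h6 := hI _ hF
      rw [map_add, Derivation.leibniz, hCr, hCr, hX] at h6
      have h7 : (C (a * (Δ X).coeff 0) : R[X]) ∈ I := by
        rw [C_mul]
        simpa [smul_eq_mul] using h6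
      have h8 := hR _ h7
      rcases mul_eq_zero.1 h8 with h | h
      · exact ha h
      · apply h0
        rw [h, C_0] at hX
        apply Derivation.ext
        intro F
        have := (ld_coeff Δ 0 h1 h2 F F.natDegree le_rfl)
        induction F using Polynomial.induction_on' with
        | add p q hp hq =>
          rw [map_add, hp (ld_coeff Δ 0 h1 h2 p p.natDegree le_rfl),
            hq (ld_coeff Δ 0 h1 h2 q q.natDegree le_rfl)]
          simp
        | monomial n r =>
          rw [← C_mul_X_pow_eq_monomial, Derivation.leibniz, Derivation.leibniz_pow, hCr, hX]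
          simp
    · apply hmin (N - 1) (by omega)
      constructor
      · intro r
        by_contra hcon
        have h4 : (Δ (C r)).natDegree = N := by
          have := h1 r
          omega
        have h5 : (Δ (C r)).leadingCoeff = 0 := by
          rw [leadingCoeff, h4]; exact hz' r
        rw [leadingCoeff_eq_zero] at h5
        rw [h5] at h4
        simp at h4
        omega
      · by_contra hcon
        have h4 : (Δ X).natDegree = N + 1 := by omega
        have h5 : (Δ X).leadingCoeff = 0 := by
          rw [leadingCoeff, h4]; exact hc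
        rw [leadingCoeff_eq_zero] at h5
        rw [h5] at h4
        simp at h4
  · have hdeg : (C a * X + C b : R[X]).natDegree ≤ 1 := natDegree_linear_le
    obtain ⟨h3, h4⟩ := ld_coeff Δ N h1 h2 _ 1 hdeg
    rw [hc] at h4
    have h5 : (C a * X + C b : R[X]).coeff 1 = a := by simp
    rw [h5] at h4
    have h6 : (Δ (C a * X + C b)).coeff (1 + N) = ldD Δ N a := by
      rw [h4]; ring
    by_cases hz : ldD Δ N a = 0
    · rw [hz]; exact J.zero_mem
    · have h7 : (Δ (C a * X + C b)).natDegree = 1 + N := by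
        apply le_antisymm h3
        apply le_natDegree_of_ne_zero
        rw [h6]; exact hz
      have h8 := hJ _ (hI _ hF)
      rw [leadingCoeff, h7, h6] at h8
      exact h8

end Main

end Crest.Agent.DW
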