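import Crest.Agent.DW.Defs
set_option autoImplicit false
namespace Crest.Agent.DW
open MvPolynomial

theorem rel_pt (c X1 X2 y1 y2 p A0 B L : ℂ) (hc : c ≠ 0)
    (hrel : A0 * B - p * (p ^ 2 - 1) = c * L)
    (hX1 : X1 = (L * (1 - p) + A0 + B) / 2) (hX2 : X2 = L - X1)
    (hy1 : c * y1 = p - X1 * X2) (hy2 : c * y2 = A0 - X2 * (p - 1)) :
    rel c X1 X2 y1 y2 = 0 := by
  have hp : X1 * X2 + c * y1 = p := by rw [hy1]; ring
  unfold rel
  rw [hp]
  have h2 : c * (X1 + X2 + y1 * (p ^ 2 - 1) + c * y2 ^ 2 - y2 * (X1 * (p + 1) - X2 * (p - 1))) = 0 := by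
    have e1 : c * (X1 + X2 + y1 * (p ^ 2 - 1) + c * y2 ^ 2 - y2 * (X1 * (p + 1) - X2 * (p - 1)))
      = c * (X1 + X2) + (c * y1) * (p ^ 2 - 1) + (c * y2) ^ 2
        - (c * y2) * (X1 * (p + 1) - X2 * (p - 1)) := by ring
    rw [e1, hy1, hy2]
    have hL : L = X1 + X2 := by rw [hX2]; ring
    have hB : B = X1 * (p + 1) - (A0 - X2 * (p - 1)) := by
      have : 2 * X1 = L * (1 - p) + A0 + B := by rw [hX1]; ring
      rw [hX2]
      linear_combination (-1 : ℂ) * this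
    rw [hL, hB] at hrel
    linear_combination (-1 : ℂ) * hrel
  exact (mul_eq_zero.mp h2).resolve_left hc

section
variable {S : Type*} [CommRing S]

theorem qf_I (x X1 X2 y1 y2 : S) :
    qf y2 (sI x X1 X2 y1 y2) (mI x X1 X2 y1 y2) (lI x X1 X2 y1 y2)
      = (X1 * X2 + x * y1 + 1) - rel x X1 X2 y1 y2 * sI x X1 X2 y1 y2 := by
  unfold qf rel sI mI lI; ring

theorem pf_I (x X1 X2 y1 y2 : S) (h : rel x X1 X2 y1 y2 = 0) :
    pf y2 (sI x X1 X2 y1 y2) (mI x X1 X2 y1 y2) (lI x X1 X2 y1 y2) = X1 * X2 + x * y1 := by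
  unfold pf; rw [qf_I, h]; ring

theorem xf_I (x X1 X2 y1 y2 : S) (h : rel x X1 X2 y1 y2 = 0) :
    xf y2 (sI x X1 X2 y1 y2) (mI x X1 X2 y1 y2) (lI x X1 X2 y1 y2) = x := by
  have hq := qf_I x X1 X2 y1 y2
  rw [h, zero_mul, sub_zero] at hq
  unfold xf
  rw [hq]
  have : rel x X1 X2 y1 y2 * (X1 * X2 + x * y1 + 1) ^ 2 = 0 := by rw [h, zero_mul]
  unfold rel at this
  unfold sI mI lI
  linear_combination (-1 : S) * this

theorem X1f_I (x X1 X2 y1 y2 : S) (h : rel x X1 X2 y1 y2 = 0) :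
    X1f y2 (sI x X1 X2 y1 y2) (mI x X1 X2 y1 y2) (lI x X1 X2 y1 y2) = X1 := by
  have hq := qf_I x X1 X2 y1 y2
  rw [h, zero_mul, sub_zero] at hq
  unfold X1f
  rw [hq]
  have : rel x X1 X2 y1 y2 * (1 + y2 * (X1 * X2 + x * y1 + 1)) = 0 := by rw [h, zero_mul]
  unfold rel at this
  unfold sI mI lI
  linear_combination (-1 : S) * this

theorem X2f_I (x X1 X2 y1 y2 : S) (h : rel x X1 X2 y1 y2 = 0) :
    X2f y2 (sI x X1 X2 y1 y2) (mI x X1 X2 y1 y2) (lI x X1 X2 y1 y2) = X2 := by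
  have hq := qf_I x X1 X2 y1 y2
  rw [h, zero_mul, sub_zero] at hq
  unfold X2f
  rw [hq]
  unfold sI lI
  ring

theorem y1f_I (x X1 X2 y1 y2 : S) (h : rel x X1 X2 y1 y2 = 0) :
    y1f y2 (sI x X1 X2 y1 y2) (mI x X1 X2 y1 y2) (lI x X1 X2 y1 y2) = y1 := by
  have hq := qf_I x X1 X2 y1 y2
  rw [h, zero_mul, sub_zero] at hq
  unfold y1f
  rw [hq]
  unfold sI lI
  ring

theorem Af_I (x X1 X2 y1 y2 : S) (h : rel x X1 X2 y1 y2 = 0) :
    Af y2 (sI x X1 X2 y1 y2) (mI x X1 X2 y1 y2) (lI x X1 X2 y1 y2)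
      = X2 * (X1 * X2 + x * y1 - 1) + x * y2 := by
  unfold Af; rw [X2f_I _ _ _ _ _ h, pf_I _ _ _ _ _ h, xf_I _ _ _ _ _ h]

theorem Bf_I (x X1 X2 y1 y2 : S) (h : rel x X1 X2 y1 y2 = 0) :
    Bf y2 (sI x X1 X2 y1 y2) (mI x X1 X2 y1 y2) (lI x X1 X2 y1 y2)
      = X1 * (X1 * X2 + x * y1 + 1) - x * y2 := by
  unfold Bf; rw [X1f_I _ _ _ _ _ h, pf_I _ _ _ _ _ h, xf_I _ _ _ _ _ h]

theorem laf_I (x X1 X2 y1 y2 : S) (h : rel x X1 X2 y1 y2 = 0) :
    laf y2 (sI x X1 X2 y1 y2) (mI x X1 X2 y1 y2) (lI x X1 X2 y1 y2) = X1 + X2 := by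
  unfold laf; rw [X1f_I _ _ _ _ _ h, X2f_I _ _ _ _ _ h]

end

theorem exists_pt (c p A0 B L : ℂ) (hc : c ≠ 0)
    (hrel : A0 * B - p * (p ^ 2 - 1) = c * L) :
    ∃ z s m l : ℂ, pf z s m l = p ∧ Af z s m l = A0 ∧ Bf z s m l = B ∧ laf z s m l = L ∧
      xf z s m l = c := by
  obtain ⟨X1, hX1⟩ : ∃ X1, X1 = (L * (1 - p) + A0 + B) / 2 := ⟨_, rfl⟩
  obtain ⟨X2, hX2⟩ : ∃ X2, X2 = L - X1 := ⟨_, rfl⟩
  obtain ⟨y1, hy1⟩ : ∃ y1, c * y1 = p - X1 * X2 := ⟨(p - X1 * X2) / c, by field_simp⟩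
  obtain ⟨y2, hy2⟩ : ∃ y2, c * y2 = A0 - X2 * (p - 1) := ⟨(A0 - X2 * (p - 1)) / c, by field_simp⟩
  have h := rel_pt c X1 X2 y1 y2 p A0 B L hc hrel hX1 hX2 hy1 hy2
  have hp : X1 * X2 + c * y1 = p := by rw [hy1]; ring
  refine ⟨y2, sI c X1 X2 y1 y2, mI c X1 X2 y1 y2, lI c X1 X2 y1 y2, ?_, ?_, ?_, ?_, ?_⟩
  · rw [pf_I _ _ _ _ _ h, hp]
  · rw [Af_I _ _ _ _ _ h, hp, hy2]; ring
  · rw [Bf_I _ _ _ _ _ h, hp, hy2, hX2, hX1]; ring
  · rw [laf_I _ _ _ _ _ h, hX2]; ring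
  · rw [xf_I _ _ _ _ _ h]

theorem vv_eval (F : P5) (z s m l : ℂ) :
    MvPolynomial.eval ![z, s, m, l] (vv F)
      = MvPolynomial.eval ![pf z s m l, Af z s m l, Bf z s m l, laf z s m l, xf z s m l] F := by
  have h1 : (MvPolynomial.eval ![z, s, m, l]).comp (vv : P5 →+* W)
      = MvPolynomial.eval ![pf z s m l, Af z s m l, Bf z s m l, laf z s m l, xf z s m l] := by
    apply MvPolynomial.ringHom_ext
    · intro r
      simp [vv]
    · intro i
      fin_cases i <;> simp [vv, ff, pf, Af, Bf, laf, xf, X1f, X2f, qf]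
  have h2 := congrArg (fun g : P5 →+* ℂ => g F) h1
  simpa using h2

theorem nca_pt (F : P5) (h : vv F = 0) (d s L c : ℂ) (hA : d * (d * s - 1) ≠ 0) (hc : c ≠ 0) :
    MvPolynomial.eval ![d * s, d * (d * s - 1),
      s * (d * s + 1) + c * L / (d * (d * s - 1)), L, c] F = 0 := by
  obtain ⟨z, s', m, l, h1, h2, h3, h4, h5⟩ := exists_pt c (d * s) (d * (d * s - 1))
    (s * (d * s + 1) + c * L / (d * (d * s - 1))) L hc (by
      have e : d * (d * s - 1) * (s * (d * s + 1) + c * L / (d * (d * s - 1)))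
          = d * (d * s - 1) * (s * (d * s + 1)) + c * L := by
        rw [mul_add, mul_div_cancel₀ _ hA]
      rw [e]; ring)
  have := vv_eval F z s' m l
  rw [h, map_zero, h1, h2, h3, h4, h5] at this
  exact this.symm

/-- `c → 0`. -/
theorem nca_zero (F : P5) (d s L : ℂ)
    (H : ∀ c : ℂ, c ≠ 0 → MvPolynomial.eval ![d * s, d * (d * s - 1),
      s * (d * s + 1) + c * L / (d * (d * s - 1)), L, c] F = 0) :
    MvPolynomial.eval ![d * s, d * (d * s - 1), s * (d * s + 1), L, 0] F = 0 := by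
  set G : Polynomial ℂ := MvPolynomial.aeval (R := ℂ) ![Polynomial.C (d * s),
      Polynomial.C (d * (d * s - 1)),
      Polynomial.C (s * (d * s + 1)) + Polynomial.X * Polynomial.C (L / (d * (d * s - 1))),
      Polynomial.C L, Polynomial.X] F with hG
  have key : ∀ c : ℂ, G.eval c = MvPolynomial.eval ![d * s, d * (d * s - 1),
      s * (d * s + 1) + c * L / (d * (d * s - 1)), L, c] F := by
    intro c
    have h1 : (Polynomial.evalRingHom c).comp
        (MvPolynomial.aeval (R := ℂ) ![Polynomial.C (d * s),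
      Polynomial.C (d * (d * s - 1)),
      Polynomial.C (s * (d * s + 1)) + Polynomial.X * Polynomial.C (L / (d * (d * s - 1))),
      Polynomial.C L, Polynomial.X]).toRingHom
      = MvPolynomial.eval ![d * s, d * (d * s - 1),
      s * (d * s + 1) + c * L / (d * (d * s - 1)), L, c] := by
      apply MvPolynomial.ringHom_ext
      · intro r
        simp
      · intro i
        fin_cases i <;> simp
        ring
    have h2 := congrArg (fun g : P5 →+* ℂ => g F) h1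
    simpa [hG] using h2
  have hG0 : G = 0 := by
    by_contra hne
    have hfin : (G.roots.toFinset : Set ℂ).Finite := G.roots.toFinset.finite_toSet
    have hsub : ({0}ᶜ : Set ℂ) ⊆ (G.roots.toFinset : Set ℂ) := by
      intro c hc
      have hc' : c ≠ 0 := hc
      simp only [Finset.mem_coe, Multiset.mem_toFinset]
      rw [Polynomial.mem_roots hne]
      show G.eval c = 0
      rw [key c]; exact H c hc'
    have hinf : (({0} : Set ℂ)ᶜ).Infinite := (Set.finite_singleton (0:ℂ)).infinite_compl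
    exact hinf (hfin.subset hsub)
  have := key 0
  rw [hG0] at this
  simpa using this.symm

theorem th_pi0_eval (F : P5) (d s L : ℂ) :
    Polynomial.eval L (Polynomial.map (MvPolynomial.eval ![d, s]) (th (pi0 F)))
      = MvPolynomial.eval ![d * s, d * (d * s - 1), s * (d * s + 1), L, 0] F := by
  have h1 : ((Polynomial.evalRingHom L).comp
      (Polynomial.mapRingHom (MvPolynomial.eval ![d, s]))).comp
      ((th : P4 →+* Polynomial U).comp (pi0 : P5 →+* P4))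
      = MvPolynomial.eval ![d * s, d * (d * s - 1), s * (d * s + 1), L, 0] := by
    apply MvPolynomial.ringHom_ext
    · intro r
      simp [th, pi0]
    · intro i
      fin_cases i <;> simp [th, pi0]
  have h2 := congrArg (fun g : P5 →+* ℂ => g F) h1
  simpa using h2

theorem nca_of_pt (F : P5)
    (H : ∀ d s L c : ℂ, d * (d * s - 1) ≠ 0 → c ≠ 0 → MvPolynomial.eval ![d * s, d * (d * s - 1),
      s * (d * s + 1) + c * L / (d * (d * s - 1)), L, c] F = 0) : th (pi0 F) = 0 := by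
  have h0 : Polynomial.C (X 0 * (X 0 * X 1 - 1) : U) * th (pi0 F) = 0 := by
    ext1 n
    rw [Polynomial.coeff_C_mul, Polynomial.coeff_zero]
    apply MvPolynomial.funext
    intro v
    rw [map_mul, map_zero]
    by_cases hA : v 0 * (v 0 * v 1 - 1) = 0
    · have : (MvPolynomial.eval v) (X 0 * (X 0 * X 1 - 1) : U) = 0 := by
        simpa using hA
      rw [this, zero_mul]
    · have hv : v = ![v 0, v 1] := by
        funext i; fin_cases i <;> rfl
      have hz : Polynomial.map (MvPolynomial.eval v) (th (pi0 F)) = 0 := by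
        apply Polynomial.funext
        intro L
        rw [hv, th_pi0_eval, Polynomial.eval_zero]
        exact nca_zero F (v 0) (v 1) L (fun c hc => H _ _ _ _ hA hc)
      have : (MvPolynomial.eval v) ((th (pi0 F)).coeff n) = 0 := by
        rw [← Polynomial.coeff_map, hz, Polynomial.coeff_zero]
      rw [this, mul_zero]
  rcases mul_eq_zero.mp h0 with h | h
  · exfalso
    have h1 : (X 0 * (X 0 * X 1 - 1) : U) = 0 := by
      exact Polynomial.C_eq_zero.mp h
    have h2 := congrArg (MvPolynomial.eval ![(1:ℂ), 2]) h1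
    simp at h2
    norm_num at h2
  · exact h

/-- `vv F = 0 → th (F|_{x=0}) = 0`. -/
theorem nca (F : P5) (h : vv F = 0) : th (pi0 F) = 0 :=
  nca_of_pt F (fun d s L c hA hc => nca_pt F h d s L c hA hc)

end Crest.Agent.DW
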