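import Crest.Agent.DW.Defs
set_option autoImplicit false
namespace Crest.Agent.DW
open MvPolynomial

namespace B71

noncomputable def g : P4 := X 1 * X 2 - X 0 * (X 0 ^ 2 - 1)

noncomputable def rho : MvPolynomial (Fin 3) ℂ →ₐ[ℂ] P4 := aeval ![X 0, X 1, X 3]

lemma rho0 : rho (X 0) = X 0 := by simp [rho]
lemma rho1 : rho (X 1) = X 1 := by simp [rho]
lemma rho2 : rho (X 2) = X 3 := by simp [rho]

lemma step1 (F : P4) : ∃ (N : ℕ) (H : MvPolynomial (Fin 3) ℂ) (Q : P4),
    X 1 ^ N * F = rho H + g * Q := by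
  induction F using MvPolynomial.induction_on with
  | C a => exact ⟨0, C a, 0, by simp [rho]⟩
  | add F G hF hG =>
    obtain ⟨N1, H1, Q1, h1⟩ := hF
    obtain ⟨N2, H2, Q2, h2⟩ := hG
    refine ⟨N1 + N2, X 1 ^ N2 * H1 + X 1 ^ N1 * H2, X 1 ^ N2 * Q1 + X 1 ^ N1 * Q2, ?_⟩
    simp only [map_add, map_mul, map_pow, rho1]
    linear_combination (X 1 ^ N2 : P4) * h1 + (X 1 ^ N1 : P4) * h2
  | mul_X F i hF =>
    obtain ⟨N, H, Q, h⟩ := hF
    fin_cases i
    · refine ⟨N, H * X 0, Q * X 0, ?_⟩
      simp only [map_mul, rho0]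
      show (X 1 ^ N * (F * X 0) : P4) = _
      linear_combination (X 0 : P4) * h
    · refine ⟨N, H * X 1, Q * X 1, ?_⟩
      simp only [map_mul, rho1]
      show (X 1 ^ N * (F * X 1) : P4) = _
      linear_combination (X 1 : P4) * h
    · refine ⟨N + 1, H * (X 0 * (X 0 ^ 2 - 1)), rho H + g * Q + X 0 * (X 0 ^ 2 - 1) * Q, ?_⟩
      simp only [map_mul, map_sub, map_pow, map_one, rho0]
      show (X 1 ^ (N + 1) * (F * X 2) : P4) = _
      have hg : (X 1 * X 2 : P4) = g + X 0 * (X 0 ^ 2 - 1) := by unfold g; ring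
      linear_combination (X 1 * X 2 : P4) * h + (rho H + g * Q) * hg
    · refine ⟨N, H * X 2, Q * X 3, ?_⟩
      simp only [map_mul, rho2]
      show (X 1 ^ N * (F * X 3) : P4) = _
      linear_combination (X 3 : P4) * h

lemma th_g : th g = 0 := by
  simp only [g, th, map_sub, map_mul, map_pow, map_one, aeval_X]
  simp only [Matrix.cons_val_zero, Matrix.cons_val_one, Matrix.cons_val_two, Matrix.head_cons,
    Matrix.tail_cons, Matrix.cons_val]
  simp only [← Polynomial.C_mul, ← Polynomial.C_pow, ← Polynomial.C_1, ← Polynomial.C_sub]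
  rw [← Polynomial.C_0]
  congr 1
  ring

lemma step2 (H : MvPolynomial (Fin 3) ℂ) (h : th (rho H) = 0) : H = 0 := by
  have key : H * ((X 0 - 1) * X 1) = 0 := by
    apply MvPolynomial.funext
    intro v
    simp only [map_mul, map_sub, map_one, eval_X, map_zero]
    by_cases h0 : v 0 = 1
    · simp [h0]
    by_cases h1 : v 1 = 0
    · simp [h1]
    have h0' : v 0 - 1 ≠ 0 := sub_ne_zero.mpr h0
    have hd : v 1 / (v 0 - 1) ≠ 0 := div_ne_zero h1 h0'
    have hcomp : ((Polynomial.eval₂RingHom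
        (MvPolynomial.eval ![v 1 / (v 0 - 1), v 0 / (v 1 / (v 0 - 1))]) (v 2)).comp
        ((th.comp rho).toRingHom)) = MvPolynomial.eval v := by
      apply MvPolynomial.ringHom_ext
      · intro r
        simp [th, rho]
      · intro i
        have e1 : v 1 / (v 0 - 1) * (v 0 / (v 1 / (v 0 - 1))) = v 0 := by field_simp
        fin_cases i
        · simp [th, rho, e1]
        · simp [th, rho, e1]
          field_simp
        · simp [th, rho]
    have := congrArg (fun φ : MvPolynomial (Fin 3) ℂ →+* ℂ => φ H) hcomp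
    simp only [RingHom.comp_apply] at this
    have h3 : ((th.comp rho).toRingHom) H = 0 := h
    rw [h3, map_zero] at this
    rw [← this, zero_mul]
  have hne : ((X 0 - 1) * X 1 : MvPolynomial (Fin 3) ℂ) ≠ 0 := by
    intro h0
    have := congrArg (MvPolynomial.eval ![2, 1, 0]) h0
    simp at this
    norm_num at this
  exact (mul_eq_zero.mp key).resolve_right hne

lemma step3 (N : ℕ) (F Q : P4) (h : X 1 ^ N * F = g * Q) : ∃ G : P4, F = g * G := by
  induction N generalizing Q with
  | zero => exact ⟨Q, by simpa using h⟩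
  | succ N ih =>
    have hp : Prime (X 1 : P4) := MvPolynomial.X_prime
    have hdvd : (X 1 : P4) ∣ g * Q := ⟨X 1 ^ N * F, by rw [← h]; ring⟩
    rcases hp.dvd_or_dvd hdvd with h1 | h1
    · exfalso
      obtain ⟨K, hK⟩ := h1
      have := congrArg (MvPolynomial.eval ![2, 0, 0, 0]) hK
      simp [g] at this
      norm_num at this
    · obtain ⟨Q', rfl⟩ := h1
      apply ih Q'
      have hx : (X 1 : P4) ≠ 0 := hp.ne_zero
      apply mul_left_cancel₀ hx
      linear_combination h

end B71

theorem ker_th (F : P4) (h : th F = 0) : ∃ G : P4, F = (X 1 * X 2 - X 0 * (X 0 ^ 2 - 1)) * G := by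
  obtain ⟨N, H, Q, h1⟩ := B71.step1 F
  have h2 : th (B71.rho H) = 0 := by
    have := congrArg th h1
    rw [map_mul, h, mul_zero, map_add, map_mul, B71.th_g, zero_mul, add_zero] at this
    exact this.symm
  have h3 := B71.step2 H h2
  subst h3
  rw [map_zero, zero_add] at h1
  exact B71.step3 N F Q h1

theorem ncb (F : P5) (h : th (pi0 F) = 0) : ∃ H : P5, vv F = ff * vv H := by
  obtain ⟨G, hG⟩ := ker_th _ h
  have hF : ∀ F : P5, ∃ K : P5, F = rename Fin.castSucc (pi0 F) + X 4 * K := by
    intro F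
    induction F using MvPolynomial.induction_on with
    | C a => exact ⟨0, by simp [pi0]⟩
    | add F G hF hG =>
      obtain ⟨K1, h1⟩ := hF
      obtain ⟨K2, h2⟩ := hG
      refine ⟨K1 + K2, ?_⟩
      rw [map_add, map_add]
      linear_combination h1 + h2
    | mul_X F i hF =>
      obtain ⟨K, h⟩ := hF
      by_cases hi : i = 4
      · subst hi
        refine ⟨F, ?_⟩
        have : pi0 (X 4) = 0 := by simp [pi0]
        rw [map_mul, this, mul_zero, map_zero]
        ring
      · have hx : rename Fin.castSucc (pi0 (X i)) = (X i : P5) := by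
          fin_cases i
          · simp [pi0]
          · simp [pi0]
          · simp [pi0]
          · simp [pi0]
          · exact absurd rfl hi
        refine ⟨K * X i, ?_⟩
        rw [map_mul, map_mul, hx]
        linear_combination (X i : P5) * h
  obtain ⟨K, hK⟩ := hF F
  refine ⟨X 3 * rename Fin.castSucc G + K, ?_⟩
  have e4 : vv (X 4) = ff := by simp [vv]
  have e0 : vv (X 0) = pf (X 0) (X 1) (X 2) (X 3) := by simp [vv]
  have e1 : vv (X 1) = Af (X 0) (X 1) (X 2) (X 3) := by simp [vv]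
  have e2 : vv (X 2) = Bf (X 0) (X 1) (X 2) (X 3) := by simp [vv]
  have e3 : vv (X 3) = laf (X 0) (X 1) (X 2) (X 3) := by simp [vv]
  have hx := id_x (X 0 : W) (X 1) (X 2) (X 3)
  conv_lhs => rw [hK, hG]
  simp only [map_add, map_mul, map_sub, map_pow, map_one, rename_X]
  have c0 : (Fin.castSucc (0 : Fin 4) : Fin 5) = 0 := rfl
  have c1 : (Fin.castSucc (1 : Fin 4) : Fin 5) = 1 := rfl
  have c2 : (Fin.castSucc (2 : Fin 4) : Fin 5) = 2 := rfl
  rw [c0, c1, c2, e0, e1, e2, e3, e4]
  have hff : ff = xf (X 0) (X 1) (X 2) (X 3) := rfl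
  rw [hff]
  linear_combination (-(vv (rename Fin.castSucc G))) * hx

end Crest.Agent.DW
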