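import Crest.Agent.DW.Defs
set_option autoImplicit false
namespace Crest.Agent.DW
open MvPolynomial

section ring
variable {S : Type*} [CommRing S]

theorem ncd_s (z s m l : S) :
    s = X2f z s m l * (1 + z * (pf z s m l + 1)) + y1f z s m l * (pf z s m l + 1) ^ 2 := by
  unfold X2f y1f pf qf; ring

theorem ncd_m (z s m l : S) :
    m = (xf z s m l + 2 * (pf z s m l + 1) * X2f z s m l) * (1 + z * (pf z s m l + 1))
      + (2 * (pf z s m l + 1) * y1f z s m l - X1f z s m l) * (pf z s m l + 1) ^ 2 := by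
  unfold xf X2f X1f y1f pf qf; ring

theorem ncd_l (z s m l : S) :
    l = X2f z s m l * z ^ 2 - y1f z s m l * (1 - z * (pf z s m l + 1)) := by
  unfold X2f y1f pf qf; ring

end ring

/-- elements of `W` lying in `vv P5` after multiplication by a power of `f` -/
def NcdGood (w : W) : Prop := ∃ (N : ℕ) (H : P5), ff ^ N * w = vv H

theorem ncd_vv (H : P5) : NcdGood (vv H) := ⟨0, H, by rw [pow_zero, one_mul]⟩

theorem ncd_vv4 : vv (X 4) = ff := by
  unfold vv
  rw [aeval_X]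
  rfl

theorem ncd_add {a b : W} (ha : NcdGood a) (hb : NcdGood b) : NcdGood (a + b) := by
  obtain ⟨N, H, h⟩ := ha
  obtain ⟨M, K, k⟩ := hb
  refine ⟨N + M, X 4 ^ M * H + X 4 ^ N * K, ?_⟩
  rw [map_add, map_mul, map_mul, map_pow, map_pow, ncd_vv4, ← h, ← k]
  ring

theorem ncd_mul {a b : W} (ha : NcdGood a) (hb : NcdGood b) : NcdGood (a * b) := by
  obtain ⟨N, H, h⟩ := ha
  obtain ⟨M, K, k⟩ := hb
  refine ⟨N + M, H * K, ?_⟩
  rw [map_mul, ← h, ← k]
  ring

theorem ncd_C (c : ℂ) : NcdGood (C c) := by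
  have h := ncd_vv (C c)
  have e : vv (C c) = C c := by
    rw [← algebraMap_eq, AlgHom.commutes, algebraMap_eq]
  rwa [e] at h

theorem ncd_neg {a : W} (ha : NcdGood a) : NcdGood (-a) := by
  have h := ncd_mul (ncd_C (-1)) ha
  have e : (C (-1 : ℂ) : W) * a = -a := by
    rw [map_neg, map_one]; ring
  rwa [e] at h

theorem ncd_sub {a b : W} (ha : NcdGood a) (hb : NcdGood b) : NcdGood (a - b) := by
  rw [sub_eq_add_neg]
  exact ncd_add ha (ncd_neg hb)

theorem ncd_one : NcdGood 1 := by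
  have h := ncd_C 1
  rwa [map_one] at h

theorem ncd_two : NcdGood 2 := by
  have h := ncd_add ncd_one ncd_one
  have e : (1 : W) + 1 = 2 := by norm_num
  rwa [e] at h

theorem ncd_pow {a : W} (ha : NcdGood a) (n : ℕ) : NcdGood (a ^ n) := by
  induction n with
  | zero => rw [pow_zero]; exact ncd_one
  | succ n ih => rw [pow_succ]; exact ncd_mul ih ha

theorem ncd_div {a : W} (ha : NcdGood (ff * a)) : NcdGood a := by
  obtain ⟨N, H, h⟩ := ha
  refine ⟨N + 1, H, ?_⟩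
  rw [← h]
  ring

theorem ncd_half {a : W} (ha : NcdGood (2 * a)) : NcdGood a := by
  have h := ncd_mul (ncd_C (1 / 2)) ha
  have e : (C (1 / 2 : ℂ) : W) * (2 * a) = a := by
    have e2 : (2 : W) = C (2 : ℂ) := by
      rw [map_ofNat]
    rw [e2, ← mul_assoc, ← map_mul]
    norm_num
  rwa [e] at h

theorem ncd_ff : NcdGood ff := by
  have h := ncd_vv (X 4)
  rwa [ncd_vv4] at h

theorem ncd_p : NcdGood (pf (X 0) (X 1) (X 2) (X 3)) := by
  have h := ncd_vv (X 0)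
  have e : vv (X 0) = pf (X 0) (X 1) (X 2) (X 3) := by
    unfold vv
    rw [aeval_X]
    rfl
  rwa [e] at h

theorem ncd_A : NcdGood (Af (X 0) (X 1) (X 2) (X 3)) := by
  have h := ncd_vv (X 1)
  have e : vv (X 1) = Af (X 0) (X 1) (X 2) (X 3) := by
    unfold vv
    rw [aeval_X]
    rfl
  rwa [e] at h

theorem ncd_B : NcdGood (Bf (X 0) (X 1) (X 2) (X 3)) := by
  have h := ncd_vv (X 2)
  have e : vv (X 2) = Bf (X 0) (X 1) (X 2) (X 3) := by
    unfold vv
    rw [aeval_X]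
    rfl
  rwa [e] at h

theorem ncd_la : NcdGood (laf (X 0) (X 1) (X 2) (X 3)) := by
  have h := ncd_vv (X 3)
  have e : vv (X 3) = laf (X 0) (X 1) (X 2) (X 3) := by
    unfold vv
    rw [aeval_X]
    rfl
  rwa [e] at h

theorem ncd_X1 : NcdGood (X1f (X 0) (X 1) (X 2) (X 3)) := by
  apply ncd_half
  rw [id_X1]
  exact ncd_add (ncd_add (ncd_mul ncd_la (ncd_sub ncd_one ncd_p)) ncd_A) ncd_B

theorem ncd_X2 : NcdGood (X2f (X 0) (X 1) (X 2) (X 3)) := by
  apply ncd_half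
  rw [id_X2]
  exact ncd_sub (ncd_sub (ncd_mul ncd_la (ncd_add ncd_one ncd_p)) ncd_A) ncd_B

theorem ncd_z : NcdGood (X 0) := by
  apply ncd_div
  have e : ff * X 0 = Af (X 0) (X 1) (X 2) (X 3) -
      X2f (X 0) (X 1) (X 2) (X 3) * (pf (X 0) (X 1) (X 2) (X 3) - 1) := by
    unfold ff Af; ring
  rw [e]
  exact ncd_sub ncd_A (ncd_mul ncd_X2 (ncd_sub ncd_p ncd_one))

theorem ncd_y1 : NcdGood (y1f (X 0) (X 1) (X 2) (X 3)) := by
  apply ncd_div
  have e : ff * y1f (X 0) (X 1) (X 2) (X 3) = pf (X 0) (X 1) (X 2) (X 3) -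
      X1f (X 0) (X 1) (X 2) (X 3) * X2f (X 0) (X 1) (X 2) (X 3) := by
    have h := id_p (X 0 : W) (X 1) (X 2) (X 3)
    unfold ff
    rw [h]
    ring
  rw [e]
  exact ncd_sub ncd_p (ncd_mul ncd_X1 ncd_X2)

theorem ncd_q : NcdGood (pf (X 0) (X 1) (X 2) (X 3) + 1) := ncd_add ncd_p ncd_one

theorem ncd_X (i : Fin 4) : NcdGood (X i) := by
  fin_cases i
  · exact ncd_z
  · show NcdGood (X 1)
    rw [ncd_s (X 0 : W) (X 1) (X 2) (X 3)]
    exact ncd_add (ncd_mul ncd_X2 (ncd_add ncd_one (ncd_mul ncd_z ncd_q)))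
      (ncd_mul ncd_y1 (ncd_pow ncd_q 2))
  · show NcdGood (X 2)
    rw [ncd_m (X 0 : W) (X 1) (X 2) (X 3)]
    exact ncd_add
      (ncd_mul (ncd_add ncd_ff (ncd_mul (ncd_mul ncd_two ncd_q) ncd_X2))
        (ncd_add ncd_one (ncd_mul ncd_z ncd_q)))
      (ncd_mul (ncd_sub (ncd_mul (ncd_mul ncd_two ncd_q) ncd_y1) ncd_X1) (ncd_pow ncd_q 2))
  · show NcdGood (X 3)
    rw [ncd_l (X 0 : W) (X 1) (X 2) (X 3)]
    exact ncd_sub (ncd_mul ncd_X2 (ncd_pow ncd_z 2))
      (ncd_mul ncd_y1 (ncd_sub ncd_one (ncd_mul ncd_z ncd_q)))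

/-- every element of `W` is in `vv P5` after multiplication by a power of `f`. -/
theorem ncd (w : W) : ∃ (N : ℕ) (H : P5), ff ^ N * w = vv H := by
  change NcdGood w
  induction w using MvPolynomial.induction_on with
  | C a => exact ncd_C a
  | add p q hp hq => exact ncd_add hp hq
  | mul_X p i hp => exact ncd_mul hp (ncd_X i)

end Crest.Agent.DW
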