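import Crest.Agent.DW.PRigid
set_option autoImplicit false
namespace Crest.Agent.DW
open MvPolynomial

/-- `th` through `R[λ]` -/
noncomputable def th2 : P4 →ₐ[ℂ] Polynomial RR :=
  aeval ![Polynomial.C rp, Polynomial.C rA, Polynomial.C rB, Polynomial.X]

theorem map_th2 (F : P4) : Polynomial.map RR.val.toRingHom (th2 F) = th F := by
  have h : (Polynomial.mapAlgHom RR.val).comp th2 = th := by
    apply MvPolynomial.algHom_ext
    intro i
    fin_cases i
    · simp [th2, th, rp, tr_val, thR]
    · simp [th2, th, rA, tr_val, thR]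
    · simp [th2, th, rB, tr_val, thR]
    · simp [th2, th]
  exact DFunLike.congr_fun h F

theorem th2_surj : Function.Surjective th2 := by
  intro G
  induction G using Polynomial.induction_on' with
  | add p q hp hq =>
    obtain ⟨F1, h1⟩ := hp
    obtain ⟨F2, h2⟩ := hq
    exact ⟨F1 + F2, by rw [map_add, h1, h2]⟩
  | monomial n r =>
    obtain ⟨F, hF⟩ := tr_surj r
    have h : ∀ F : P3, th2 (rename Fin.castSucc F) = Polynomial.C (tr F) := by
      intro F
      have h' : th2.comp (rename Fin.castSucc) = (Polynomial.CAlgHom (R := ℂ) (A := RR)).comp tr := by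
        apply MvPolynomial.algHom_ext
        intro i
        fin_cases i
        · simp [th2, rp]
        · simp [th2, rA]
        · simp [th2, rB]
      exact DFunLike.congr_fun h' F
    refine ⟨rename Fin.castSucc F * X 3 ^ n, ?_⟩
    have h3 : th2 (X 3) = Polynomial.X := by simp [th2]
    rw [map_mul, map_pow, h, hF, h3, Polynomial.C_mul_X_pow_eq_monomial]

theorem th2_eq_zero {F : P4} : th2 F = 0 ↔ th F = 0 := by
  rw [← map_th2]
  constructor
  · intro h; rw [h, Polynomial.map_zero]
  · intro h
    have hinj : Function.Injective (Polynomial.map RR.val.toRingHom) :=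
      Polynomial.map_injective _ Subtype.val_injective
    exact hinj (by rw [h, Polynomial.map_zero])

theorem ev_th (F : P4) :
    Polynomial.eval₂ RR.val.toRingHom (X 0 + X 1) (th2 F) = ev (th F) := by
  rw [← map_th2, Polynomial.eval₂_eq_eval_map]
  simp [ev, Polynomial.aeval_def, Polynomial.eval₂_eq_eval_map]

/-- RIGIDITY. `D` induces a locally nilpotent derivation of `S0 = range th = R[λ]`, preserving `ker ev`; then it is 0 on S0. -/
theorem rigid (D : Derivation ℂ P4 P4)
    (h1 : ∀ F, th F = 0 → th (D F) = 0)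
    (h2 : ∀ F, ∃ n : ℕ, th ((⇑D)^[n] F) = 0)
    (h3 : ∀ F, ev (th F) = 0 → ev (th (D F)) = 0) (F : P4) : th (D F) = 0 := by
  have hx : ∀ x, th2 x = 0 → th2 (D x) = 0 := fun x hx => th2_eq_zero.2 (h1 x (th2_eq_zero.1 hx))
  set Δ : Derivation ℂ (Polynomial RR) (Polynomial RR) :=
    Derivation.liftOfSurjective (R := ℂ) (f := th2) th2_surj (d := D) hx with hΔ
  have hap : ∀ F, Δ (th2 F) = th2 (D F) := fun F =>
    Derivation.liftOfSurjective_apply (R := ℂ) (f := th2) th2_surj (d := D) hx F
  have hit : ∀ (n : ℕ) F, (⇑Δ)^[n] (th2 F) = th2 ((⇑D)^[n] F) := by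
    intro n
    induction n with
    | zero => intro F; rfl
    | succ n ih =>
      intro F
      rw [Function.iterate_succ_apply, hap, ih, Function.iterate_succ_apply]
  have hzero : Δ = 0 := by
    apply poly_rigid
    · intro G
      obtain ⟨F, rfl⟩ := th2_surj G
      obtain ⟨n, hn⟩ := h2 F
      exact ⟨n, by rw [hit]; exact th2_eq_zero.2 hn⟩
    · intro G hG
      obtain ⟨F, rfl⟩ := th2_surj G
      rw [ev_th] at hG
      rw [hap, ev_th]
      exact h3 F hG
  have h4 := hap F
  rw [hzero] at h4
  exact th2_eq_zero.1 h4.symm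

end Crest.Agent.DW
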