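import Crest.Agent.DW.NCa
import Crest.Agent.DW.NCb
import Crest.Agent.DW.NCc
import Crest.Agent.DW.NCd
import Crest.Agent.DW.NCe
import Crest.Agent.DW.Rigid
set_option autoImplicit false
namespace Crest.Agent.DW
open MvPolynomial

namespace F18

/-- lift `P4 → P5` -/
noncomputable def li : P4 →ₐ[ℂ] P5 := aeval ![X 0, X 1, X 2, X 3]

theorem pi0_li (F : P4) : pi0 (li F) = F := by
  have h : pi0.comp li = AlgHom.id ℂ P4 := by
    apply MvPolynomial.algHom_ext
    intro i
    fin_cases i <;> simp [pi0, li]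
  exact DFunLike.congr_fun h F

theorem vv_X4 : vv (X 4) = ff := by simp [vv]

theorem vv_X0 : vv (X 0) = pf (X 0) (X 1) (X 2) (X 3) := by simp [vv]

theorem pi0_X4 : pi0 (X 4) = 0 := by simp [pi0]

theorem pi0_castSucc (i : Fin 4) : pi0 (X i.castSucc) = X i := by
  fin_cases i <;> simp [pi0]

theorem E_ff (E : Derivation ℂ W W) (hEf : E ff = 0) (m : ℕ) (w : W) :
    E (ff ^ m * w) = ff ^ m * E w := by
  rw [Derivation.leibniz, Derivation.leibniz_pow, hEf]
  simp

theorem no_coordinate : ¬ ∃ τ : W ≃ₐ[ℂ] W, τ ff = X 0 := by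
  rintro ⟨τ, hτ⟩
  obtain ⟨E, hE, hEf, hEp⟩ := nce τ hτ
  have hff : ff ≠ 0 := by
    intro h
    rw [h, map_zero] at hτ
    exact (MvPolynomial.X_ne_zero (R := ℂ) (0 : Fin 4)) hτ.symm
  have hex : ∃ k : ℕ, ∀ i : Fin 4, ∃ H : P5, ff ^ k * E (vv (X i.castSucc)) = vv H := by
    choose N H hNH using fun i : Fin 4 => ncd (E (vv (X i.castSucc)))
    refine ⟨∑ i, N i, fun i => ⟨X 4 ^ ((∑ i, N i) - N i) * H i, ?_⟩⟩
    have hle : N i ≤ ∑ i, N i :=
      Finset.single_le_sum (fun _ _ => Nat.zero_le _) (Finset.mem_univ i)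
    rw [map_mul, map_pow, vv_X4, ← hNH i, ← mul_assoc, ← pow_add, Nat.sub_add_cancel hle]
  classical
  have hk := Nat.find_spec hex
  have hmin : ∀ m, m < Nat.find hex → ¬ ∀ i : Fin 4, ∃ H : P5,
      ff ^ m * E (vv (X i.castSucc)) = vv H := fun m hm => Nat.find_min hex hm
  generalize Nat.find hex = k at hk hmin
  choose H hH using hk
  let D5 : Derivation ℂ P5 P5 :=
    mkDerivation ℂ (fun j : Fin 5 => Fin.lastCases (motive := fun _ => P5) 0 H j)
  let D : Derivation ℂ P4 P4 := mkDerivation ℂ (fun i : Fin 4 => pi0 (H i))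
  have hD5c : ∀ i : Fin 4, D5 (X i.castSucc) = H i := by
    intro i
    simp only [D5, mkDerivation_X, Fin.lastCases_castSucc]
  have hD54 : D5 (X (Fin.last 4)) = 0 := by
    simp only [D5, mkDerivation_X, Fin.lastCases_last]
  have hDX : ∀ i : Fin 4, D (X i) = pi0 (H i) := by
    intro i
    simp only [D, mkDerivation_X]
  -- claim 1
  have c1 : ∀ F : P5, vv (D5 F) = ff ^ k * E (vv F) := by
    intro F
    induction F using MvPolynomial.induction_on with
    | C a =>
      have e1 : (C a : P5) = algebraMap ℂ P5 a := rfl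
      rw [e1, Derivation.map_algebraMap, AlgHom.commutes, Derivation.map_algebraMap]
      simp
    | add p q hp hq => rw [map_add, map_add, map_add, map_add, hp, hq, mul_add]
    | mul_X p j hp =>
      have hj : vv (D5 (X j)) = ff ^ k * E (vv (X j)) := by
        refine Fin.lastCases ?_ (fun i => ?_) j
        · rw [hD54, map_zero]
          have : vv (X (Fin.last 4)) = ff := vv_X4
          rw [this, hEf, mul_zero]
        · rw [hD5c, ← hH i]
      rw [Derivation.leibniz, map_mul, Derivation.leibniz, map_add, smul_eq_mul, smul_eq_mul,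
        smul_eq_mul, smul_eq_mul, map_mul, map_mul, hj, hp]
      ring
  have c2 : ∀ F : P5, pi0 (D5 F) = D (pi0 F) := by
    intro F
    induction F using MvPolynomial.induction_on with
    | C a =>
      have e1 : (C a : P5) = algebraMap ℂ P5 a := rfl
      rw [e1, Derivation.map_algebraMap, AlgHom.commutes, Derivation.map_algebraMap]
      simp
    | add p q hp hq => rw [map_add, map_add, map_add, map_add, hp, hq]
    | mul_X p j hp =>
      have hj : pi0 (D5 (X j)) = D (pi0 (X j)) := by
        refine Fin.lastCases ?_ (fun i => ?_) j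
        · rw [hD54, map_zero]
          have : pi0 (X (Fin.last 4)) = 0 := pi0_X4
          rw [this, map_zero]
        · rw [hD5c, pi0_castSucc, hDX]
      rw [Derivation.leibniz, map_mul, Derivation.leibniz, map_add, smul_eq_mul, smul_eq_mul,
        smul_eq_mul, smul_eq_mul, map_mul, map_mul, hj, hp]
  have c3 : ∀ (n : ℕ) (F : P5), vv ((⇑D5)^[n] F) = ff ^ (k * n) * (⇑E)^[n] (vv F) := by
    intro n F
    induction n with
    | zero => simp
    | succ n ih =>
      rw [Function.iterate_succ_apply', Function.iterate_succ_apply', c1, ih, E_ff E hEf]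
      ring
  have c4 : ∀ (n : ℕ) (F : P5), pi0 ((⇑D5)^[n] F) = (⇑D)^[n] (pi0 F) := by
    intro n F
    induction n with
    | zero => simp
    | succ n ih =>
      rw [Function.iterate_succ_apply', Function.iterate_succ_apply', c2, ih]
  -- rigidity
  have hr : ∀ F : P4, th (D F) = 0 := by
    intro F
    refine rigid D ?_ ?_ ?_ F
    · intro F hF
      have h0 : th (pi0 (li F)) = 0 := by rw [pi0_li]; exact hF
      obtain ⟨G, hG⟩ := ncb (li F) h0
      have h1 : vv (D5 (li F)) = ff * vv (D5 G) := by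
        rw [c1, hG, c1]
        have := E_ff E hEf 1 (vv G)
        rw [pow_one] at this
        rw [this]; ring
      have h2 : vv (D5 (li F) - X 4 * D5 G) = 0 := by
        rw [map_sub, map_mul, vv_X4, h1, sub_self]
      have h3 := nca _ h2
      rw [map_sub, map_mul, pi0_X4, zero_mul, sub_zero, c2, pi0_li] at h3
      exact h3
    · intro F
      obtain ⟨n, hn⟩ := hE (vv (li F))
      refine ⟨n, ?_⟩
      have h1 : vv ((⇑D5)^[n] (li F)) = 0 := by rw [c3, hn, mul_zero]
      have h2 := nca _ h1
      rw [c4, pi0_li] at h2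
      exact h2
    · intro F hF
      have h0 : ev (th (pi0 (li F))) = 0 := by rw [pi0_li]; exact hF
      obtain ⟨w, hw⟩ := (ncc (li F)).2 h0
      have h1 : ∃ w, vv (D5 (li F)) = ff * w := by
        refine ⟨ff ^ k * E w, ?_⟩
        rw [c1, hw]
        have := E_ff E hEf 1 w
        rw [pow_one] at this
        rw [this]; ring
      have h2 := (ncc _).1 h1
      rw [c2, pi0_li] at h2
      exact h2
  -- conclusion
  have hdiv : ∀ i : Fin 4, ∃ G : P5, vv (H i) = ff * vv G := by
    intro i
    apply ncb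
    rw [← hDX]
    exact hr _
  cases k with
  | zero =>
    obtain ⟨G, hG⟩ := hdiv 0
    apply hEp
    refine ⟨vv G, ?_⟩
    have h1 := hH 0
    rw [pow_zero, one_mul, hG] at h1
    have h2 : (X (Fin.castSucc (0 : Fin 4)) : P5) = X 0 := rfl
    rw [h2, vv_X0] at h1
    exact h1
  | succ k =>
    apply hmin k (Nat.lt_succ_self k)
    intro i
    obtain ⟨G, hG⟩ := hdiv i
    refine ⟨G, ?_⟩
    have h1 := hH i
    rw [hG, pow_succ'] at h1
    have h2 : ff * (ff ^ k * E (vv (X i.castSucc))) = ff * vv G := by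
      rw [← mul_assoc]; exact h1
    exact mul_left_cancel₀ hff h2

end F18

end Crest.Agent.DW
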