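import Crest.Agent.DW.RModel
set_option autoImplicit false
namespace Crest.Agent.DW
open MvPolynomial

/-- weights `δ : 1, σ : -1` on `U` -/
noncomputable def wt : Fin 2 → ℤ := ![1, -1]

noncomputable def cU (n : ℤ) : U →ₗ[ℂ] U := weightedHomogeneousComponent wt n

theorem hom_p : IsWeightedHomogeneous wt (thR (X 0)) 0 := by
  have h : thR (X 0) = X 0 * X 1 := by simp [thR]
  rw [h]
  have := (isWeightedHomogeneous_X ℂ wt 0).mul (isWeightedHomogeneous_X ℂ wt 1)
  simpa [wt] using this

theorem hom_p' : IsWeightedHomogeneous wt (X 0 * X 1 : U) 0 := by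
  have := (isWeightedHomogeneous_X ℂ wt 0).mul (isWeightedHomogeneous_X ℂ wt 1)
  simpa [wt] using this

theorem hom_A : IsWeightedHomogeneous wt (thR (X 1)) 1 := by
  have h : thR (X 1) = X 0 * (X 0 * X 1 - 1) := by simp [thR]
  rw [h]
  have := (isWeightedHomogeneous_X ℂ wt 0).mul (hom_p'.sub (isWeightedHomogeneous_one ℂ wt))
  simpa [wt] using this

theorem hom_B : IsWeightedHomogeneous wt (thR (X 2)) (-1) := by
  have h : thR (X 2) = X 1 * (X 0 * X 1 + 1) := by simp [thR]
  rw [h]
  have := (isWeightedHomogeneous_X ℂ wt 1).mul (hom_p'.add (isWeightedHomogeneous_one ℂ wt))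
  simpa [wt] using this

theorem rel_thR : thR (X 1) * thR (X 2) = thR (X 0) * (thR (X 0) ^ 2 - 1) := by
  simp only [thR, aeval_X]
  simp
  ring

/-- the image of a monomial -/
theorem thR_monomial (e : Fin 3 →₀ ℕ) (c : ℂ) :
    thR (monomial e c) = C c * (thR (X 0) ^ e 0 * thR (X 1) ^ e 1 * thR (X 2) ^ e 2) := by
  rw [monomial_eq, Finsupp.prod_fintype _ _ (by simp)]
  simp only [map_mul, map_prod, map_pow, Fin.prod_univ_three]
  congr 1
  exact algHom_C thR c

theorem hom_monomial (e : Fin 3 →₀ ℕ) (c : ℂ) :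
    IsWeightedHomogeneous wt (thR (monomial e c)) ((e 1 : ℤ) - e 2) := by
  rw [thR_monomial]
  have h := ((hom_p.pow (e 0)).mul (hom_A.pow (e 1))).mul (hom_B.pow (e 2))
  have h2 := h.C_mul c
  convert h2 using 1
  simp
  ring

theorem cU_monomial (e : Fin 3 →₀ ℕ) (c : ℂ) (n : ℤ) :
    cU n (thR (monomial e c)) = if n = (e 1 : ℤ) - e 2 then thR (monomial e c) else 0 := by
  have h := hom_monomial e c
  split_ifs with hn
  · subst hn
    exact h.weightedHomogeneousComponent_same
  · exact h.weightedHomogeneousComponent_ne n (fun h => hn h)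

theorem cU_mem (n : ℤ) (F : P3) : cU n (thR F) ∈ RR := by
  induction F using MvPolynomial.induction_on' with
  | monomial e c =>
    rw [cU_monomial]
    split_ifs
    · exact ⟨_, rfl⟩
    · exact Subalgebra.zero_mem _
  | add F G hF hG =>
    rw [map_add, map_add]
    exact Subalgebra.add_mem _ hF hG

/-- weight `n ≥ 0` part -/
theorem part_pos (n : ℕ) (F : P3) : ∃ g : Polynomial ℂ,
    cU n (thR F) = thR (X 1) ^ n * Polynomial.aeval (thR (X 0)) g ∧
      g.eval 1 = (aeval ![(1 : Polynomial ℂ), Polynomial.X, 0] F).coeff n := by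
  induction F using MvPolynomial.induction_on' with
  | monomial e c =>
    rw [cU_monomial]
    have hev : (aeval ![(1 : Polynomial ℂ), Polynomial.X, 0] (monomial e c)) =
        Polynomial.C c * (Polynomial.X ^ e 1 * 0 ^ e 2) := by
      rw [aeval_monomial, Finsupp.prod_fintype _ _ (by simp), Fin.prod_univ_three]
      simp
    rw [hev]
    split_ifs with hn
    · have h1 : e 1 = n + e 2 := by omega
      refine ⟨Polynomial.C c * (Polynomial.X ^ e 0 * (Polynomial.X * (Polynomial.X ^ 2 - 1)) ^ e 2),
        ?_, ?_⟩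
      · rw [thR_monomial, h1]
        simp only [map_mul, map_pow, map_sub, map_one, Polynomial.aeval_X, Polynomial.aeval_C]
        rw [← rel_thR, mul_pow, algebraMap_eq]
        ring
      · rcases Nat.eq_zero_or_pos (e 2) with h2 | h2
        · rw [h2] at h1 ⊢
          simp [h1]
        · have h2' : e 2 ≠ 0 := by omega
          simp [h2']
    · refine ⟨0, by simp, ?_⟩
      rcases Nat.eq_zero_or_pos (e 2) with h2 | h2
      · have : n ≠ e 1 := by
          intro h
          apply hn
          rw [h2, h]; simp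
        rw [h2]
        simp [Polynomial.coeff_X_pow, this]
      · have h2' : e 2 ≠ 0 := by omega
        simp [h2']
  | add F G hF hG =>
    obtain ⟨g, hg, hg'⟩ := hF
    obtain ⟨g2, hg2, hg2'⟩ := hG
    refine ⟨g + g2, ?_, ?_⟩
    · rw [map_add, map_add, hg, hg2, map_add]; ring
    · rw [map_add, Polynomial.coeff_add, Polynomial.eval_add, hg', hg2']

/-- weight `-n ≤ 0` part -/
theorem part_neg (n : ℕ) (F : P3) : ∃ g : Polynomial ℂ,
    cU (-n) (thR F) = thR (X 2) ^ n * Polynomial.aeval (thR (X 0)) g ∧
      g.eval (-1) = (aeval ![(-1 : Polynomial ℂ), 0, Polynomial.X] F).coeff n := by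
  induction F using MvPolynomial.induction_on' with
  | monomial e c =>
    rw [cU_monomial]
    have hev : (aeval ![(-1 : Polynomial ℂ), 0, Polynomial.X] (monomial e c)) =
        Polynomial.C c * ((-1) ^ e 0 * 0 ^ e 1 * Polynomial.X ^ e 2) := by
      rw [aeval_monomial, Finsupp.prod_fintype _ _ (by simp), Fin.prod_univ_three]
      simp
    rw [hev]
    split_ifs with hn
    · have h1 : e 2 = n + e 1 := by omega
      refine ⟨Polynomial.C c * (Polynomial.X ^ e 0 * (Polynomial.X * (Polynomial.X ^ 2 - 1)) ^ e 1),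
        ?_, ?_⟩
      · rw [thR_monomial, h1]
        simp only [map_mul, map_pow, map_sub, map_one, Polynomial.aeval_X, Polynomial.aeval_C]
        rw [← rel_thR, mul_pow, algebraMap_eq]
        ring
      · rcases Nat.eq_zero_or_pos (e 1) with h2 | h2
        · rw [h2] at h1 ⊢
          have : ((-1 : Polynomial ℂ) ^ e 0) = Polynomial.C ((-1) ^ e 0) := by simp
          simp only [pow_zero, mul_one, this, h1, add_zero]
          rw [Polynomial.coeff_C_mul, Polynomial.coeff_C_mul, Polynomial.coeff_X_pow_self]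
          simp
        · have h2' : e 1 ≠ 0 := by omega
          simp [h2']
    · refine ⟨0, by simp, ?_⟩
      rcases Nat.eq_zero_or_pos (e 1) with h2 | h2
      · have hne : n ≠ e 2 := by
          intro h
          apply hn
          rw [h2, h]; simp
        rw [h2]
        have : ((-1 : Polynomial ℂ) ^ e 0) = Polynomial.C ((-1) ^ e 0) := by simp
        simp only [pow_zero, mul_one, this]
        rw [Polynomial.coeff_C_mul, Polynomial.coeff_C_mul, Polynomial.coeff_X_pow, if_neg hne]
        simp
      · have h2' : e 1 ≠ 0 := by omega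
        simp [h2']
  | add F G hF hG =>
    obtain ⟨g, hg, hg'⟩ := hF
    obtain ⟨g2, hg2, hg2'⟩ := hG
    refine ⟨g + g2, ?_, ?_⟩
    · rw [map_add, map_add, hg, hg2, map_add]; ring
    · rw [map_add, Polynomial.coeff_add, Polynomial.eval_add, hg', hg2']

end Crest.Agent.DW
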