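import Crest.Agent.DW.RModel
import Crest.Agent.DW.Gr
import Crest.Agent.DW.RGr
set_option autoImplicit false
namespace Crest.Agent.DW
open MvPolynomial

theorem cU_mem' (n : ℤ) (r : RR) : cU n (r : U) ∈ RR := by
  obtain ⟨F, hF⟩ := tr_surj r
  rw [← hF, tr_val]
  exact cU_mem n F

noncomputable def compR (n : ℤ) : RR →ₗ[ℂ] RR :=
  LinearMap.codRestrict (Subalgebra.toSubmodule RR) ((cU n).comp RR.val.toLinearMap)
    (fun r => cU_mem' n r)

theorem compR_val (n : ℤ) (r : RR) : (compR n r : U) = cU n (r : U) := rfl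

theorem cU_hom (n : ℤ) (u : U) : IsWeightedHomogeneous wt (cU n u) n :=
  weightedHomogeneousComponent_isWeightedHomogeneous n u

theorem compR_fin (a : RR) : {i | compR i a ≠ 0}.Finite := by
  refine (weightedHomogeneousComponent_finsupp (w := wt) (a : U)).subset fun i hi => ?_
  simp only [Function.mem_support, Set.mem_setOf_eq] at hi ⊢
  intro h
  apply hi
  apply Subtype.ext
  rw [compR_val]
  exact h

noncomputable def GR : Gr RR where
  comp := compR
  fin := compR_fin
  sum a := by
    apply Subtype.ext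
    have h1 : ((∑ᶠ i, compR i a : RR) : U) = ∑ᶠ i, ((compR i a : RR) : U) :=
      AddMonoidHom.map_finsum (RR.val.toRingHom.toAddMonoidHom) (compR_fin a)
    rw [h1]
    exact sum_weightedHomogeneousComponent wt (a : U)
  idem i j a := by
    apply Subtype.ext
    split_ifs with h
    · subst h
      rw [compR_val]
      exact (cU_hom i (a : U)).weightedHomogeneousComponent_same
    · rw [compR_val]
      exact (cU_hom j (a : U)).weightedHomogeneousComponent_ne i (fun h' => h h')
  mul i j a b := by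
    apply Subtype.ext
    rw [compR_val]
    exact ((cU_hom i (a : U)).mul (cU_hom j (b : U))).weightedHomogeneousComponent_same

theorem GR_comp (n : ℤ) (r : RR) : GR.comp n r = compR n r := rfl

theorem GR_monomial (e : Fin 3 →₀ ℕ) (c : ℂ) (n : ℤ) :
    GR.comp n (tr (monomial e c)) = if n = (e 1 : ℤ) - e 2 then tr (monomial e c) else 0 := by
  apply Subtype.ext
  rw [GR_comp, compR_val, tr_val, cU_monomial]
  split_ifs <;> rfl

theorem GR_p : GR.comp 0 rp = rp := by
  apply Subtype.ext
  rw [GR_comp, compR_val]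
  exact hom_p.weightedHomogeneousComponent_same

theorem GR_A : GR.comp 1 rA = rA := by
  apply Subtype.ext
  rw [GR_comp, compR_val]
  exact hom_A.weightedHomogeneousComponent_same

theorem GR_B : GR.comp (-1) rB = rB := by
  apply Subtype.ext
  rw [GR_comp, compR_val]
  exact hom_B.weightedHomogeneousComponent_same

theorem GR_pos (n : ℕ) (F : P3) : ∃ g : Polynomial ℂ,
    GR.comp n (tr F) = rA ^ n * Polynomial.aeval rp g ∧
      g.eval 1 = (aeval ![(1 : Polynomial ℂ), Polynomial.X, 0] F).coeff n := by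
  obtain ⟨g, hg, hg'⟩ := part_pos n F
  refine ⟨g, ?_, hg'⟩
  apply Subtype.ext
  rw [GR_comp, compR_val, tr_val, hg]
  simp only [MulMemClass.coe_mul, SubmonoidClass.coe_pow]
  congr 1
  have : (RR.val (Polynomial.aeval rp g) : U) = Polynomial.aeval (RR.val rp) g :=
    (Polynomial.aeval_algHom_apply RR.val rp g).symm
  exact this.symm

theorem GR_neg (n : ℕ) (F : P3) : ∃ g : Polynomial ℂ,
    GR.comp (-n) (tr F) = rB ^ n * Polynomial.aeval rp g ∧
      g.eval (-1) = (aeval ![(-1 : Polynomial ℂ), 0, Polynomial.X] F).coeff n := by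
  obtain ⟨g, hg, hg'⟩ := part_neg n F
  refine ⟨g, ?_, hg'⟩
  apply Subtype.ext
  rw [GR_comp, compR_val, tr_val, hg]
  simp only [MulMemClass.coe_mul, SubmonoidClass.coe_pow]
  congr 1
  have : (RR.val (Polynomial.aeval rp g) : U) = Polynomial.aeval (RR.val rp) g :=
    (Polynomial.aeval_algHom_apply RR.val rp g).symm
  exact this.symm

/-! degree bounds -/

/-- `x` homogeneous of weight `i` and `D x` of degree `≤ i + m` -/
def HB (D : Derivation ℂ RR RR) (m : ℤ) (i : ℤ) (x : RR) : Prop :=
  GR.comp i x = x ∧ GR.ElLE (D x) (i + m)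

theorem elLE_hom_mul {x z : RR} {i k : ℤ} (hx : GR.comp i x = x) (hz : GR.ElLE z k) :
    GR.ElLE (x * z) (i + k) := by
  intro l hl
  have h := GR.comp_hom_mul i (l - i) x z
  rw [hx] at h
  have e : i + (l - i) = l := by ring
  rw [e] at h
  rw [h, hz (l - i) (by omega), mul_zero]

theorem elLE_add {x z : RR} {k : ℤ} (hx : GR.ElLE x k) (hz : GR.ElLE z k) :
    GR.ElLE (x + z) k := by
  intro l hl
  rw [map_add, hx l hl, hz l hl, add_zero]

theorem HB.mul {D : Derivation ℂ RR RR} {m i j : ℤ} {x y : RR} (hx : HB D m i x)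
    (hy : HB D m j y) : HB D m (i + j) (x * y) := by
  refine ⟨?_, ?_⟩
  · have := GR.mul i j x y
    rw [hx.1, hy.1] at this
    exact this
  · rw [Derivation.leibniz, smul_eq_mul, smul_eq_mul]
    refine elLE_add ?_ ?_
    · have := elLE_hom_mul hx.1 hy.2
      rwa [show i + (j + m) = i + j + m by ring] at this
    · have := elLE_hom_mul hy.1 hx.2
      rwa [show j + (i + m) = i + j + m by ring] at this

theorem HB.one (D : Derivation ℂ RR RR) (m : ℤ) : HB D m 0 1 := by
  refine ⟨?_, ?_⟩
  · have h := GR_monomial 0 1 0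
    have h1 : tr (monomial 0 1) = 1 := by
      rw [show (monomial (0 : Fin 3 →₀ ℕ) (1 : ℂ)) = 1 from rfl, map_one]
    rw [h1] at h
    simpa using h
  · intro k _
    rw [Derivation.map_one_eq_zero, map_zero]

theorem HB.pow {D : Derivation ℂ RR RR} {m i : ℤ} {x : RR} (hx : HB D m i x) (n : ℕ) :
    HB D m (n * i) (x ^ n) := by
  induction n with
  | zero => simpa using HB.one D m
  | succ n ih =>
    have := ih.mul hx
    rw [pow_succ]
    convert this using 1
    push_cast
    ring

theorem HB.smul {D : Derivation ℂ RR RR} {m i : ℤ} {x : RR} (hx : HB D m i x) (c : ℂ) :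
    HB D m i (c • x) := by
  refine ⟨by rw [map_smul, hx.1], fun k hk => ?_⟩
  rw [Derivation.map_smul, map_smul, hx.2 k hk, smul_zero]

theorem exists_elLE (a : RR) : ∃ m : ℤ, GR.ElLE a m := by
  obtain ⟨m, hm⟩ := (GR.fin a).bddAbove
  refine ⟨m, fun k hk => ?_⟩
  by_contra h
  exact absurd (hm h) (by omega)

theorem elLE_mono {a : RR} {m n : ℤ} (h : GR.ElLE a m) (hmn : m ≤ n) : GR.ElLE a n :=
  fun k hk => h k (by omega)

theorem tr_monomial (e : Fin 3 →₀ ℕ) (c : ℂ) :
    tr (monomial e c) = c • (rp ^ e 0 * rA ^ e 1 * rB ^ e 2) := by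
  apply Subtype.ext
  rw [tr_val, thR_monomial, ← MvPolynomial.smul_eq_C_mul]
  rfl

theorem exists_degLE (D : Derivation ℂ RR RR) : ∃ m : ℤ, GR.DegLE D m := by
  obtain ⟨m0, h0⟩ := exists_elLE (D rp)
  obtain ⟨m1, h1⟩ := exists_elLE (D rA)
  obtain ⟨m2, h2⟩ := exists_elLE (D rB)
  set m : ℤ := max m0 (max (m1 + 1) (m2 + 1)) with hm
  have hp : HB D m 0 rp := ⟨GR_p, elLE_mono h0 (by omega)⟩
  have hA : HB D m 1 rA := ⟨GR_A, elLE_mono h1 (by omega)⟩
  have hB : HB D m (-1) rB := ⟨GR_B, elLE_mono h2 (by omega)⟩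
  refine ⟨m, ?_⟩
  have key : ∀ F : P3, ∀ i k : ℤ, i + m < k → GR.comp k (D (GR.comp i (tr F))) = 0 := by
    intro F
    induction F using MvPolynomial.induction_on' with
    | monomial e c =>
      intro i k hk
      rw [GR_monomial]
      split_ifs with hi
      · rw [tr_monomial]
        have h := (((hp.pow (e 0)).mul (hA.pow (e 1))).mul (hB.pow (e 2))).smul c
        refine h.2 k ?_
        rw [hi] at hk
        linarith
      · rw [map_zero, map_zero]
    | add F G hF hG =>
      intro i k hk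
      rw [map_add, map_add, map_add, map_add, hF i k hk, hG i k hk, add_zero]
  intro i a k hk
  obtain ⟨F, rfl⟩ := tr_surj a
  exact key F i k hk

theorem derivation_ext {T : Derivation ℂ RR RR} (hp : T rp = 0) (hA : T rA = 0) (hB : T rB = 0) :
    T = 0 := by
  ext r
  obtain ⟨F, rfl⟩ := tr_surj r
  have : T (tr F) = 0 := by
    induction F using MvPolynomial.induction_on' with
    | monomial e c =>
      rw [tr_monomial, Derivation.map_smul, Derivation.leibniz, Derivation.leibniz,
        Derivation.leibniz_pow, Derivation.leibniz_pow, Derivation.leibniz_pow, hp, hA, hB]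
      simp
    | add F G hF hG => rw [map_add, map_add, hF, hG, add_zero]
  rw [this]
  rfl

theorem rA_ne : rA ≠ 0 := by
  intro h
  have h' := congrArg (fun r : RR => eval ![(1 : ℂ), 0] (r : U)) h
  simp [rA, tr_val, thR] at h'

theorem rB_ne : rB ≠ 0 := by
  intro h
  have h' := congrArg (fun r : RR => eval ![(0 : ℂ), 1] (r : U)) h
  simp [rB, tr_val, thR] at h'

theorem rp_ne : (3 * rp ^ 2 - 1 : RR) ≠ 0 := by
  intro h
  have h1 : ((3 * rp ^ 2 - 1 : RR) : U) = 3 * thR (X 0) ^ 2 - 1 := rfl
  have h' := congrArg (fun r : RR => eval ![(1 : ℂ), 0] (r : U)) h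
  simp only [h1] at h'
  simp [thR] at h'

theorem rel_T (T : Derivation ℂ RR RR) :
    rA * T rB + rB * T rA = (3 * rp ^ 2 - 1) * T rp := by
  have h := congrArg T rel_R
  rw [Derivation.leibniz, Derivation.leibniz, map_sub, Derivation.leibniz_pow,
    Derivation.map_one_eq_zero] at h
  simp only [smul_eq_mul, nsmul_eq_mul] at h
  rw [h]
  push_cast
  ring

theorem R_rigid (d : Derivation ℂ RR RR) (hN : LN d) (h1 : OnL1 (d rp)) (h2 : OnL2 (d rp)) :
    d = 0 := by
  by_contra hd
  -- least degree bound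
  have hbdd : ∃ b : ℤ, ∀ z, GR.DegLE d z → b ≤ z := by
    by_contra hcon
    push_neg at hcon
    apply hd
    have hall : ∀ e : ℤ, GR.DegLE d e := by
      intro e
      obtain ⟨z, hz, hze⟩ := hcon e
      intro i a k hk
      exact hz i a k (by omega)
    ext a
    have : d a = 0 := by
      refine GR.ind (P := fun a => d a = 0) (map_zero d)
        (fun x y hx hy => by rw [map_add, hx, hy, add_zero]) (fun i a => ?_) a
      rw [← GR.sum (d (GR.comp i a))]
      have : ∀ k, GR.comp k (d (GR.comp i a)) = 0 := fun k => hall (k - i - 1) i a k (by omega)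
      simp [this]
    rw [this]
    rfl
  obtain ⟨e, he, hmin⟩ := Int.exists_least_of_bdd hbdd (exists_degLE d)
  have hT0 : GR.part d e ≠ 0 := by
    intro h0
    have := hmin _ (GR.degLE_pred he h0)
    omega
  have hTN : LN (GR.part d e) := GR.part_LN he hN
  set T := GR.part d e with hT
  have Tp : T rp = GR.comp e (d rp) := by
    have := GR.part_hom d e 0 rp
    rw [GR_p, zero_add] at this
    exact this
  have TA : T rA = GR.comp (1 + e) (d rA) := by
    have := GR.part_hom d e 1 rA
    rw [GR_A] at this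
    exact this
  have TB : T rB = GR.comp (-1 + e) (d rB) := by
    have := GR.part_hom d e (-1) rB
    rw [GR_B] at this
    exact this
  apply hT0
  -- `e ≥ 0 → T A = 0`
  have hA0 : 0 ≤ e → T rA = 0 := by
    intro h
    obtain ⟨n, rfl⟩ := Int.eq_ofNat_of_zero_le h
    obtain ⟨F, hF⟩ := tr_surj (d rA)
    obtain ⟨g, hg, -⟩ := GR_pos (n + 1) F
    refine eq_zero_of_dvd hTN (a := rA) (b := rA ^ n * Polynomial.aeval rp g) ?_
    rw [TA, ← hF, show (1 : ℤ) + n = ((n + 1 : ℕ) : ℤ) by push_cast; ring, hg]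
    ring
  have hB0 : e ≤ 0 → T rB = 0 := by
    intro h
    obtain ⟨n, hn⟩ := Int.eq_ofNat_of_zero_le (show 0 ≤ -e by omega)
    obtain ⟨F, hF⟩ := tr_surj (d rB)
    obtain ⟨g, hg, -⟩ := GR_neg (n + 1) F
    refine eq_zero_of_dvd hTN (a := rB) (b := rB ^ n * Polynomial.aeval rp g) ?_
    rw [TB, ← hF, show (-1 : ℤ) + e = -((n + 1 : ℕ) : ℤ) by push_cast; omega, hg]
    ring
  have hrel := rel_T T
  rcases lt_trichotomy e 0 with hneg | hzero | hpos
  · -- e < 0
    have hB := hB0 hneg.le
    obtain ⟨n, hn⟩ := Int.eq_ofNat_of_zero_le (show 0 ≤ -e by omega)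
    obtain ⟨F, hF⟩ := tr_surj (d rp)
    obtain ⟨g, hg, hg'⟩ := GR_neg n F
    have hz : aeval ![(-1 : Polynomial ℂ), 0, Polynomial.X] F = 0 := by
      apply Polynomial.funext
      intro b
      have h3 := h2 F hF b
      rw [Polynomial.eval_zero, ← h3]
      have : (Polynomial.aeval b).comp (aeval ![(-1 : Polynomial ℂ), 0, Polynomial.X]) =
          (aeval ![(-1 : ℂ), 0, b] : P3 →ₐ[ℂ] ℂ) := by
        apply MvPolynomial.algHom_ext
        intro i
        fin_cases i <;> simp
      have h4 := DFunLike.congr_fun this F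
      simpa [MvPolynomial.aeval_eq_eval, Polynomial.coe_aeval_eq_eval] using h4
    rw [hz, Polynomial.coeff_zero] at hg'
    obtain ⟨g', rfl⟩ := Polynomial.dvd_iff_isRoot.mpr hg'
    have hp1 : T (rp + 1) = 0 := by
      refine eq_zero_of_dvd hTN (a := rp + 1) (b := rB ^ n * Polynomial.aeval rp g') ?_
      rw [map_add, Derivation.map_one_eq_zero, add_zero, Tp, ← hF,
        show e = -((n : ℕ) : ℤ) by omega, hg]
      simp
      ring
    have hp : T rp = 0 := by
      rwa [map_add, Derivation.map_one_eq_zero, add_zero] at hp1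
    rw [hp, hB, mul_zero, mul_zero, zero_add] at hrel
    have hA : T rA = 0 := (mul_eq_zero.mp hrel).resolve_left rB_ne
    exact derivation_ext hp hA hB
  · have hA := hA0 hzero.ge
    have hB := hB0 hzero.le
    rw [hA, hB, mul_zero, mul_zero, zero_add] at hrel
    have hp : T rp = 0 := (mul_eq_zero.mp hrel.symm).resolve_left rp_ne
    exact derivation_ext hp hA hB
  · have hA := hA0 hpos.le
    obtain ⟨n, hn⟩ := Int.eq_ofNat_of_zero_le hpos.le
    obtain ⟨F, hF⟩ := tr_surj (d rp)
    obtain ⟨g, hg, hg'⟩ := GR_pos n F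
    have hz : aeval ![(1 : Polynomial ℂ), Polynomial.X, 0] F = 0 := by
      apply Polynomial.funext
      intro b
      have h3 := h1 F hF b
      rw [Polynomial.eval_zero, ← h3]
      have : (Polynomial.aeval b).comp (aeval ![(1 : Polynomial ℂ), Polynomial.X, 0]) =
          (aeval ![(1 : ℂ), b, 0] : P3 →ₐ[ℂ] ℂ) := by
        apply MvPolynomial.algHom_ext
        intro i
        fin_cases i <;> simp
      have h4 := DFunLike.congr_fun this F
      simpa [MvPolynomial.aeval_eq_eval, Polynomial.coe_aeval_eq_eval] using h4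
    rw [hz, Polynomial.coeff_zero] at hg'
    obtain ⟨g', rfl⟩ := Polynomial.dvd_iff_isRoot.mpr hg'
    have hp1 : T (rp - 1) = 0 := by
      refine eq_zero_of_dvd hTN (a := rp - 1) (b := rA ^ n * Polynomial.aeval rp g') ?_
      rw [map_sub, Derivation.map_one_eq_zero, sub_zero, Tp, ← hF,
        show e = ((n : ℕ) : ℤ) by omega, hg]
      simp
      ring
    have hp : T rp = 0 := by
      rwa [map_sub, Derivation.map_one_eq_zero, sub_zero] at hp1
    rw [hp, hA, mul_zero, mul_zero, add_zero] at hrel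
    have hB : T rB = 0 := (mul_eq_zero.mp hrel).resolve_left rA_ne
    exact derivation_ext hp hA hB

end Crest.Agent.DW
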