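import Crest.Agent.DW.KLem
import Crest.Agent.DW.RRigid
import Crest.Agent.DW.Lead

set_option autoImplicit false

namespace Crest.Agent.DW

open MvPolynomial

theorem onL1_zero : OnL1 0 := by
  have h := (K1 0 (by simp)).1
  rwa [Polynomial.leadingCoeff_zero] at h

theorem onL2_zero : OnL2 0 := by
  have h := (K1 0 (by simp)).2
  rwa [Polynomial.leadingCoeff_zero] at h

theorem onL1_of {r : RR} (G : P3) (hG : tr G = r) (h : ∀ a : ℂ, eval ![1, a, 0] G = 0) :
    OnL1 r := by
  intro F hF t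
  have h1 := onL1_zero (F - G) (by rw [map_sub, hF, hG, sub_self]) t
  rwa [map_sub, h t, sub_zero] at h1

theorem onL2_of {r : RR} (G : P3) (hG : tr G = r) (h : ∀ b : ℂ, eval ![-1, 0, b] G = 0) :
    OnL2 r := by
  intro F hF t
  have h1 := onL2_zero (F - G) (by rw [map_sub, hF, hG, sub_self]) t
  rwa [map_sub, h t, sub_zero] at h1

/-- the ideal of elements of `R` vanishing on both lines -/
noncomputable def JJ : Ideal RR where
  carrier := {r | OnL1 r ∧ OnL2 r}
  add_mem' := by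
    rintro a b ⟨ha1, ha2⟩ ⟨hb1, hb2⟩
    obtain ⟨F, hF⟩ := tr_surj a
    obtain ⟨G, hG⟩ := tr_surj b
    constructor
    · exact onL1_of (F + G) (by rw [map_add, hF, hG])
        (fun t => by rw [map_add, ha1 F hF t, hb1 G hG t, add_zero])
    · exact onL2_of (F + G) (by rw [map_add, hF, hG])
        (fun t => by rw [map_add, ha2 F hF t, hb2 G hG t, add_zero])
  zero_mem' := ⟨onL1_zero, onL2_zero⟩
  smul_mem' := by
    rintro c r ⟨hr1, hr2⟩
    obtain ⟨F, hF⟩ := tr_surj c
    obtain ⟨G, hG⟩ := tr_surj r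
    constructor
    · exact onL1_of (F * G) (by rw [map_mul, hF, hG, smul_eq_mul])
        (fun t => by rw [map_mul, hr1 G hG t, mul_zero])
    · exact onL2_of (F * G) (by rw [map_mul, hF, hG, smul_eq_mul])
        (fun t => by rw [map_mul, hr2 G hG t, mul_zero])

theorem mem_JJ {r : RR} : r ∈ JJ ↔ OnL1 r ∧ OnL2 r := Iff.rfl

/-- No nonzero locally nilpotent derivation of `R[λ]` preserves the kernel of `λ ↦ δ + σ`. -/
theorem poly_rigid (Δ : Derivation ℂ (Polynomial RR) (Polynomial RR))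
    (hN : ∀ G, ∃ n : ℕ, (⇑Δ)^[n] G = 0)
    (hI : ∀ G : Polynomial RR, Polynomial.eval₂ RR.val.toRingHom (X 0 + X 1) G = 0 →
      Polynomial.eval₂ RR.val.toRingHom (X 0 + X 1) (Δ G) = 0) : Δ = 0 := by
  by_contra h0
  have : Algebra.FiniteType ℂ RR := Algebra.FiniteType.of_surjective tr tr_surj
  set I : Ideal (Polynomial RR) :=
    RingHom.ker (Polynomial.eval₂RingHom RR.val.toRingHom (X 0 + X 1)) with hIdef
  have hmem : ∀ G : Polynomial RR, G ∈ I ↔
      Polynomial.eval₂ RR.val.toRingHom (X 0 + X 1) G = 0 := by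
    intro G
    rw [hIdef, RingHom.mem_ker, Polynomial.coe_eval₂RingHom]
  have vp : (rp : U) = X 0 * X 1 := by simp [rp, tr_val, thR]
  have vA : (rA : U) = X 0 * (X 0 * X 1 - 1) := by simp [rA, tr_val, thR]
  have vB : (rB : U) = X 1 * (X 0 * X 1 + 1) := by simp [rB, tr_val, thR]
  obtain ⟨δ, hδ1, hδ2, hδ3⟩ := lead_part Δ hN h0 I
    (fun G hG => (hmem _).2 (hI G ((hmem _).1 hG)))
    (fun r hr => by
      rw [hmem, Polynomial.eval₂_C] at hr
      exact Subtype.ext hr)
    (rp ^ 2 - 1) (-(rp + 1) * rA - (rp - 1) * rB)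
    (by
      intro h
      have h2 := congrArg (fun r : RR => eval (fun _ => (0 : ℂ)) (r : U)) h
      simp [vp] at h2)
    (by
      rw [hmem, Polynomial.eval₂_add, Polynomial.eval₂_mul, Polynomial.eval₂_C, Polynomial.eval₂_C,
        Polynomial.eval₂_X]
      change ((rp ^ 2 - 1 : RR) : U) * (X 0 + X 1) + ((-(rp + 1) * rA - (rp - 1) * rB : RR) : U) = 0
      push_cast
      rw [vp, vA, vB]
      ring)
    JJ (fun F hF => K1 F ((hmem _).1 hF))
  have e : δ (rp ^ 2 - 1) = 2 * rp * δ rp := by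
    rw [map_sub, Derivation.map_one_eq_zero, sub_zero, Derivation.leibniz_pow]
    simp only [smul_eq_mul, nsmul_eq_mul]
    push_cast
    ring
  rw [e] at hδ3
  obtain ⟨h1, h2⟩ := hδ3
  apply hδ2
  refine R_rigid δ hδ1 ?_ ?_
  · intro F hF t
    have := h1 (2 * X 0 * F) (by rw [map_mul, map_mul, hF, map_ofNat]; rfl) t
    simpa using this
  · intro F hF t
    have := h2 (2 * X 0 * F) (by rw [map_mul, map_mul, hF, map_ofNat]; rfl) t
    simpa using this

end Crest.Agent.DW
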