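import Crest.Agent.DW.Defs

/-! The ring `R = ℂ[δσ, δ(δσ-1), σ(δσ+1)] ⊆ ℂ[δ,σ]` and the evaluations on the two lines
`p = 1, B = 0` and `p = -1, A = 0`. -/

set_option autoImplicit false

namespace Crest.Agent.DW

open MvPolynomial

abbrev P3 := MvPolynomial (Fin 3) ℂ

/-- `p ↦ δσ, A ↦ δ(δσ-1), B ↦ σ(δσ+1)` -/
noncomputable def thR : P3 →ₐ[ℂ] U :=
  aeval ![X 0 * X 1, X 0 * (X 0 * X 1 - 1), X 1 * (X 0 * X 1 + 1)]

noncomputable abbrev RR : Subalgebra ℂ U := thR.range

noncomputable def tr : P3 →ₐ[ℂ] RR := thR.rangeRestrict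

theorem tr_surj : Function.Surjective tr := thR.rangeRestrict_surjective

theorem tr_val (F : P3) : (tr F : U) = thR F := rfl

noncomputable def rp : RR := tr (X 0)
noncomputable def rA : RR := tr (X 1)
noncomputable def rB : RR := tr (X 2)

theorem rp_eq : rp = tr (X 0) := rfl
theorem rA_eq : rA = tr (X 1) := rfl
theorem rB_eq : rB = tr (X 2) := rfl

theorem rel_R : rA * rB = rp * (rp ^ 2 - 1) := by
  apply Subtype.ext
  simp only [rA, rB, rp, MulMemClass.coe_mul, AddSubgroupClass.coe_sub, SubmonoidClass.coe_pow,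
    OneMemClass.coe_one, tr_val, thR, aeval_X]
  simp
  ring

/-- `r` vanishes on the line `p = 1, B = 0` -/
def OnL1 (r : RR) : Prop := ∀ F : P3, tr F = r → ∀ a : ℂ, eval ![1, a, 0] F = 0

/-- `r` vanishes on the line `p = -1, A = 0` -/
def OnL2 (r : RR) : Prop := ∀ F : P3, tr F = r → ∀ b : ℂ, eval ![-1, 0, b] F = 0

end Crest.Agent.DW
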