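import Crest.Agent.DW.NCc
set_option autoImplicit false
namespace Crest.Agent.DW
open MvPolynomial

namespace Stab62

section gen
variable {S T : Type*} [CommRing S] [CommRing T]

def gG (X1 X2 Y1 Y2 p : S) : S := Y1 * Y2 * (X1 - X2) - Y2 ^ 2 - Y1 ^ 2 * (p + X1 * X2)

/-- S1 -/
theorem S1 (x X1 X2 Y1 Y2 t p : S) (hp : p = X1 * X2 + x * Y1) :
    rel x (X1 + x * t * (1 - p)) (X2 + x * t * (1 + p))
      (Y1 - t * ((1 + p) * X1 + (1 - p) * X2) - x * t ^ 2 * (1 - p ^ 2)) (Y2 - t * (p ^ 2 - 1))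
      = X1 + X2 + x * (2 * t - gG X1 X2 Y1 Y2 p)
        - ((X1 * X2 + 1) * X1 - (X1 * X2 - 1) * X2) * Y2 + ((X1 * X2) ^ 2 - 1) * Y1 := by
  unfold rel gG
  have hp2 : (X1 + x * t * (1 - p)) * (X2 + x * t * (1 + p))
      + x * (Y1 - t * ((1 + p) * X1 + (1 - p) * X2) - x * t ^ 2 * (1 - p ^ 2)) = p := by
    rw [hp]; ring
  rw [hp2]
  subst hp
  ring

def be (X1 X2 : S) : S := (X1 * X2 + 1) * X1 - (X1 * X2 - 1) * X2
def al (X1 X2 : S) : S := (X1 * X2) ^ 2 - 1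
def aa (c X1 X2 : S) : S := -(c * ((X1 * X2 + 1) * X2 + (X1 * X2 - 1) * X1))
def bb (c X1 X2 : S) : S := c * (4 + X1 ^ 2 - X2 ^ 2)

theorem det1 (c X1 X2 : S) (hc : 4 * c = 1) :
    aa c X1 X2 * be X1 X2 + bb c X1 X2 * al X1 X2 = -1 := by
  unfold aa bb be al
  linear_combination (-1) * hc

/-- forward: input `t0 x X1 X2 e`. -/
def uu (t0 x X1 X2 : S) : S := x * t0 + X1 + X2
def YY1 (c t0 x X1 X2 e : S) : S := bb c X1 X2 * uu t0 x X1 X2 - be X1 X2 * e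
def YY2 (c t0 x X1 X2 e : S) : S := -aa c X1 X2 * uu t0 x X1 X2 - al X1 X2 * e
def pp (c t0 x X1 X2 e : S) : S := X1 * X2 + x * YY1 c t0 x X1 X2 e
def tt (c h t0 x X1 X2 e : S) : S :=
  h * (t0 + gG X1 X2 (YY1 c t0 x X1 X2 e) (YY2 c t0 x X1 X2 e) (pp c t0 x X1 X2 e))
def oX1 (x X1 t p : S) : S := X1 + x * t * (1 - p)
def oX2 (x X2 t p : S) : S := X2 + x * t * (1 + p)
def oy1 (x X1 X2 Y1 t p : S) : S :=
  Y1 - t * ((1 + p) * X1 + (1 - p) * X2) - x * t ^ 2 * (1 - p ^ 2)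
def oy2 (Y2 t p : S) : S := Y2 - t * (p ^ 2 - 1)

def fA (c h : S) (v : Fin 5 → S) : Fin 5 → S :=
  let t0 := v 0
  let x := v 1
  let X1 := v 2
  let X2 := v 3
  let e := v 4
  let p := pp c t0 x X1 X2 e
  let t := tt c h t0 x X1 X2 e
  let Y1 := YY1 c t0 x X1 X2 e
  let Y2 := YY2 c t0 x X1 X2 e
  let a1 := oX1 x X1 t p
  let a2 := oX2 x X2 t p
  let b1 := oy1 x X1 X2 Y1 t p
  let b2 := oy2 Y2 t p
  ![t, b2, sI x a1 a2 b1 b2, mI x a1 a2 b1 b2, lI x a1 a2 b1 b2]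

/-- backward: input `t z s m l`. -/
def bX1 (t z s m l : S) : S := X1f z s m l - xf z s m l * t * (1 - pf z s m l)
def bX2 (t z s m l : S) : S := X2f z s m l - xf z s m l * t * (1 + pf z s m l)
def bY1 (t z s m l : S) : S :=
  y1f z s m l + t * ((1 + pf z s m l) * X1f z s m l + (1 - pf z s m l) * X2f z s m l)
    - xf z s m l * t ^ 2 * (1 - pf z s m l ^ 2)
def bY2 (t z s m l : S) : S := z + t * (pf z s m l ^ 2 - 1)

def fB (c : S) (v : Fin 5 → S) : Fin 5 → S :=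
  let t := v 0
  let z := v 1
  let s := v 2
  let m := v 3
  let l := v 4
  let a1 := bX1 t z s m l
  let a2 := bX2 t z s m l
  let b1 := bY1 t z s m l
  let b2 := bY2 t z s m l
  ![2 * t - gG a1 a2 b1 b2 (pf z s m l), xf z s m l, a1, a2, aa c a1 a2 * b1 + bb c a1 a2 * b2]

/-- `rel = 0` for the forward output -/
theorem rel_A (c h t0 x X1 X2 e : S) (hc : 4 * c = 1) (hh : 2 * h = 1) :
    rel x (oX1 x X1 (tt c h t0 x X1 X2 e) (pp c t0 x X1 X2 e))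
      (oX2 x X2 (tt c h t0 x X1 X2 e) (pp c t0 x X1 X2 e))
      (oy1 x X1 X2 (YY1 c t0 x X1 X2 e) (tt c h t0 x X1 X2 e) (pp c t0 x X1 X2 e))
      (oy2 (YY2 c t0 x X1 X2 e) (tt c h t0 x X1 X2 e) (pp c t0 x X1 X2 e)) = 0 := by
  have h1 := S1 x X1 X2 (YY1 c t0 x X1 X2 e) (YY2 c t0 x X1 X2 e) (tt c h t0 x X1 X2 e)
    (pp c t0 x X1 X2 e) rfl
  unfold oX1 oX2 oy1 oy2
  rw [h1]
  have h2 : 2 * tt c h t0 x X1 X2 e - gG X1 X2 (YY1 c t0 x X1 X2 e) (YY2 c t0 x X1 X2 e)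
      (pp c t0 x X1 X2 e) = t0 := by
    unfold tt
    linear_combination (t0 + gG X1 X2 (YY1 c t0 x X1 X2 e) (YY2 c t0 x X1 X2 e)
      (pp c t0 x X1 X2 e)) * hh
  rw [h2]
  have h3 := det1 c X1 X2 hc
  change X1 + X2 + x * t0 - be X1 X2 * YY2 c t0 x X1 X2 e + al X1 X2 * YY1 c t0 x X1 X2 e = 0
  unfold YY1 YY2
  have h4 : X1 + X2 + x * t0 = uu t0 x X1 X2 := by unfold uu; ring
  rw [h4]
  linear_combination (uu t0 x X1 X2) * h3

theorem pp_A (c h t0 x X1 X2 e : S) :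
    (oX1 x X1 (tt c h t0 x X1 X2 e) (pp c t0 x X1 X2 e))
      * (oX2 x X2 (tt c h t0 x X1 X2 e) (pp c t0 x X1 X2 e))
      + x * (oy1 x X1 X2 (YY1 c t0 x X1 X2 e) (tt c h t0 x X1 X2 e) (pp c t0 x X1 X2 e))
      = pp c t0 x X1 X2 e := by
  have : pp c t0 x X1 X2 e = X1 * X2 + x * YY1 c t0 x X1 X2 e := rfl
  unfold oX1 oX2 oy1
  linear_combination (-1) * this

theorem fB_fA (c h : S) (hc : 4 * c = 1) (hh : 2 * h = 1) (v : Fin 5 → S) :
    fB c (fA c h v) = v := by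
  set t0 := v 0 with ht0
  set x := v 1 with hx
  set X1 := v 2 with hX1
  set X2 := v 3 with hX2
  set e := v 4 with he
  have hrel := rel_A c h t0 x X1 X2 e hc hh
  have hpp := pp_A c h t0 x X1 X2 e
  have hpdef : pp c t0 x X1 X2 e = X1 * X2 + x * YY1 c t0 x X1 X2 e := rfl
  have htdef : 2 * tt c h t0 x X1 X2 e = t0 + gG X1 X2 (YY1 c t0 x X1 X2 e)
      (YY2 c t0 x X1 X2 e) (pp c t0 x X1 X2 e) := by
    unfold tt
    linear_combination (t0 + gG X1 X2 (YY1 c t0 x X1 X2 e) (YY2 c t0 x X1 X2 e)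
      (pp c t0 x X1 X2 e)) * hh
  have hY1 : YY1 c t0 x X1 X2 e = bb c X1 X2 * uu t0 x X1 X2 - be X1 X2 * e := rfl
  have hY2 : YY2 c t0 x X1 X2 e = -aa c X1 X2 * uu t0 x X1 X2 - al X1 X2 * e := rfl
  have hdet := det1 c X1 X2 hc
  have hA : fA c h v = ![tt c h t0 x X1 X2 e,
      oy2 (YY2 c t0 x X1 X2 e) (tt c h t0 x X1 X2 e) (pp c t0 x X1 X2 e),
      sI x (oX1 x X1 (tt c h t0 x X1 X2 e) (pp c t0 x X1 X2 e))
        (oX2 x X2 (tt c h t0 x X1 X2 e) (pp c t0 x X1 X2 e))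
        (oy1 x X1 X2 (YY1 c t0 x X1 X2 e) (tt c h t0 x X1 X2 e) (pp c t0 x X1 X2 e))
        (oy2 (YY2 c t0 x X1 X2 e) (tt c h t0 x X1 X2 e) (pp c t0 x X1 X2 e)),
      mI x (oX1 x X1 (tt c h t0 x X1 X2 e) (pp c t0 x X1 X2 e))
        (oX2 x X2 (tt c h t0 x X1 X2 e) (pp c t0 x X1 X2 e))
        (oy1 x X1 X2 (YY1 c t0 x X1 X2 e) (tt c h t0 x X1 X2 e) (pp c t0 x X1 X2 e))
        (oy2 (YY2 c t0 x X1 X2 e) (tt c h t0 x X1 X2 e) (pp c t0 x X1 X2 e)),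
      lI x (oX1 x X1 (tt c h t0 x X1 X2 e) (pp c t0 x X1 X2 e))
        (oX2 x X2 (tt c h t0 x X1 X2 e) (pp c t0 x X1 X2 e))
        (oy1 x X1 X2 (YY1 c t0 x X1 X2 e) (tt c h t0 x X1 X2 e) (pp c t0 x X1 X2 e))
        (oy2 (YY2 c t0 x X1 X2 e) (tt c h t0 x X1 X2 e) (pp c t0 x X1 X2 e))] := rfl
  rw [hA]
  generalize htt : tt c h t0 x X1 X2 e = t at *
  generalize hp : pp c t0 x X1 X2 e = p at *
  generalize hy1 : YY1 c t0 x X1 X2 e = Y1 at *
  generalize hy2 : YY2 c t0 x X1 X2 e = Y2 at *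
  have exf := NCc.xf_I _ _ _ _ _ hrel
  have eX1 := NCc.X1f_I _ _ _ _ _ hrel
  have eX2 := NCc.X2f_I _ _ _ _ _ hrel
  have ey1 := NCc.y1f_I _ _ _ _ _ hrel
  have ep : pf (oy2 Y2 t p) (sI x (oX1 x X1 t p) (oX2 x X2 t p) (oy1 x X1 X2 Y1 t p) (oy2 Y2 t p))
      (mI x (oX1 x X1 t p) (oX2 x X2 t p) (oy1 x X1 X2 Y1 t p) (oy2 Y2 t p))
      (lI x (oX1 x X1 t p) (oX2 x X2 t p) (oy1 x X1 X2 Y1 t p) (oy2 Y2 t p)) = p := by
    rw [id_p, exf, eX1, eX2, ey1, hpp]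
  generalize hs : sI x (oX1 x X1 t p) (oX2 x X2 t p) (oy1 x X1 X2 Y1 t p) (oy2 Y2 t p) = s at *
  generalize hm : mI x (oX1 x X1 t p) (oX2 x X2 t p) (oy1 x X1 X2 Y1 t p) (oy2 Y2 t p) = m at *
  generalize hl : lI x (oX1 x X1 t p) (oX2 x X2 t p) (oy1 x X1 X2 Y1 t p) (oy2 Y2 t p) = l at *
  generalize hz : oy2 Y2 t p = z at *
  have f1 : bX1 t z s m l = X1 := by
    unfold bX1; rw [eX1, exf, ep]; unfold oX1; ring
  have f2 : bX2 t z s m l = X2 := by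
    unfold bX2; rw [eX2, exf, ep]; unfold oX2; ring
  have f3 : bY1 t z s m l = Y1 := by
    unfold bY1; rw [eX1, eX2, ey1, exf, ep]; unfold oX1 oX2 oy1; ring
  have f4 : bY2 t z s m l = Y2 := by
    unfold bY2; rw [ep, ← hz]; unfold oy2; ring
  have hB : fB c ![t, z, s, m, l] = ![2 * t - gG (bX1 t z s m l) (bX2 t z s m l) (bY1 t z s m l)
      (bY2 t z s m l) (pf z s m l), xf z s m l, bX1 t z s m l, bX2 t z s m l,
      aa c (bX1 t z s m l) (bX2 t z s m l) * bY1 t z s m l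
        + bb c (bX1 t z s m l) (bX2 t z s m l) * bY2 t z s m l] := rfl
  rw [hB, f1, f2, f3, f4, exf, ep]
  funext i
  fin_cases i
  · change 2 * t - gG X1 X2 Y1 Y2 p = t0
    linear_combination htdef
  · rfl
  · rfl
  · rfl
  · change aa c X1 X2 * Y1 + bb c X1 X2 * Y2 = e
    rw [hY1, hY2]
    linear_combination (-e) * hdet

theorem fA_fB (c h : S) (hc : 4 * c = 1) (hh : 2 * h = 1) (v : Fin 5 → S) :
    fA c h (fB c v) = v := by
  set t := v 0 with ht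
  set z := v 1 with hz
  set s := v 2 with hs
  set m := v 3 with hm
  set l := v 4 with hl
  have hrel := NCc.rel_f z s m l
  have hip := id_p z s m l
  have es := NCc.sI_f z s m l
  have em := NCc.mI_f z s m l
  have el := NCc.lI_f z s m l
  have hB : fB c v = ![2 * t - gG (bX1 t z s m l) (bX2 t z s m l) (bY1 t z s m l)
      (bY2 t z s m l) (pf z s m l), xf z s m l, bX1 t z s m l, bX2 t z s m l,
      aa c (bX1 t z s m l) (bX2 t z s m l) * bY1 t z s m l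
        + bb c (bX1 t z s m l) (bX2 t z s m l) * bY2 t z s m l] := rfl
  rw [hB]
  -- abbreviations
  have g1 : oX1 (xf z s m l) (bX1 t z s m l) t (pf z s m l) = X1f z s m l := by
    unfold oX1 bX1; ring
  have g2 : oX2 (xf z s m l) (bX2 t z s m l) t (pf z s m l) = X2f z s m l := by
    unfold oX2 bX2; ring
  have g3 : oy1 (xf z s m l) (bX1 t z s m l) (bX2 t z s m l) (bY1 t z s m l) t (pf z s m l)
      = y1f z s m l := by
    unfold oy1 bY1 bX1 bX2; ring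
  have g4 : oy2 (bY2 t z s m l) t (pf z s m l) = z := by
    unfold oy2 bY2; ring
  have g5 : pf z s m l = bX1 t z s m l * bX2 t z s m l + xf z s m l * bY1 t z s m l := by
    unfold bX1 bX2 bY1
    generalize hx : xf z s m l = x at *
    generalize hX1 : X1f z s m l = X1 at *
    generalize hX2 : X2f z s m l = X2 at *
    generalize hy1 : y1f z s m l = y1 at *
    generalize hp : pf z s m l = p at *
    linear_combination hip
  have hS1 := S1 (xf z s m l) (bX1 t z s m l) (bX2 t z s m l) (bY1 t z s m l) (bY2 t z s m l) t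
    (pf z s m l) g5
  generalize hx : xf z s m l = x at *
  generalize hX1 : X1f z s m l = X1 at *
  generalize hX2 : X2f z s m l = X2 at *
  generalize hy1 : y1f z s m l = y1 at *
  generalize hp : pf z s m l = p at *
  generalize ha1 : bX1 t z s m l = a1 at *
  generalize ha2 : bX2 t z s m l = a2 at *
  generalize hb1 : bY1 t z s m l = b1 at *
  generalize hb2 : bY2 t z s m l = b2 at *
  generalize hgG : gG a1 a2 b1 b2 p = G at *
  have hS1' : a1 + a2 + x * (2 * t - G) - be a1 a2 * b2 + al a1 a2 * b1 = 0 := by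
    have h5 : rel x (oX1 x a1 t p) (oX2 x a2 t p) (oy1 x a1 a2 b1 t p) (oy2 b2 t p)
      = a1 + a2 + x * (2 * t - G) - be a1 a2 * b2 + al a1 a2 * b1 := by
        rw [← hgG]; exact S1 x a1 a2 b1 b2 t p g5
    rw [← h5, g1, g2, g3, g4]
    exact hrel
  have hdet := det1 c a1 a2 hc
  have hu : uu (2 * t - G) x a1 a2 = be a1 a2 * b2 - al a1 a2 * b1 := by
    unfold uu; linear_combination hS1'
  have k1 : YY1 c (2 * t - G) x a1 a2 (aa c a1 a2 * b1 + bb c a1 a2 * b2) = b1 := by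
    unfold YY1; rw [hu]
    linear_combination (-b1) * hdet
  have k2 : YY2 c (2 * t - G) x a1 a2 (aa c a1 a2 * b1 + bb c a1 a2 * b2) = b2 := by
    unfold YY2; rw [hu]
    linear_combination (-b2) * hdet
  have k3 : pp c (2 * t - G) x a1 a2 (aa c a1 a2 * b1 + bb c a1 a2 * b2) = p := by
    unfold pp; rw [k1, g5]
  have k4 : tt c h (2 * t - G) x a1 a2 (aa c a1 a2 * b1 + bb c a1 a2 * b2) = t := by
    unfold tt; rw [k1, k2, k3, hgG]
    linear_combination t * hh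
  have hA : fA c h ![2 * t - G, x, a1, a2, aa c a1 a2 * b1 + bb c a1 a2 * b2] =
    (let t0 := 2 * t - G
     let e := aa c a1 a2 * b1 + bb c a1 a2 * b2
     let p := pp c t0 x a1 a2 e
     let t := tt c h t0 x a1 a2 e
     let Y1 := YY1 c t0 x a1 a2 e
     let Y2 := YY2 c t0 x a1 a2 e
     let c1 := oX1 x a1 t p
     let c2 := oX2 x a2 t p
     let d1 := oy1 x a1 a2 Y1 t p
     let d2 := oy2 Y2 t p
     ![t, d2, sI x c1 c2 d1 d2, mI x c1 c2 d1 d2, lI x c1 c2 d1 d2]) := rfl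
  rw [hA]
  simp only [k1, k2, k3, k4, g1, g2, g3, g4, es, em, el]
  funext i
  fin_cases i <;> rfl

end gen

section maps
variable {S T : Type*} [CommRing S] [CommRing T]

theorem map_gG (g : S →+* T) (X1 X2 Y1 Y2 p : S) :
    g (gG X1 X2 Y1 Y2 p) = gG (g X1) (g X2) (g Y1) (g Y2) (g p) := by simp [gG]
theorem map_be (g : S →+* T) (X1 X2 : S) : g (be X1 X2) = be (g X1) (g X2) := by simp [be]
theorem map_al (g : S →+* T) (X1 X2 : S) : g (al X1 X2) = al (g X1) (g X2) := by simp [al]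
theorem map_aa (g : S →+* T) (c X1 X2 : S) : g (aa c X1 X2) = aa (g c) (g X1) (g X2) := by
  simp [aa]
theorem map_bb (g : S →+* T) (c X1 X2 : S) : g (bb c X1 X2) = bb (g c) (g X1) (g X2) := by
  simp [bb, map_ofNat]
theorem map_uu (g : S →+* T) (t0 x X1 X2 : S) :
    g (uu t0 x X1 X2) = uu (g t0) (g x) (g X1) (g X2) := by simp [uu]
theorem map_YY1 (g : S →+* T) (c t0 x X1 X2 e : S) :
    g (YY1 c t0 x X1 X2 e) = YY1 (g c) (g t0) (g x) (g X1) (g X2) (g e) := by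
  simp [YY1, map_bb, map_uu, map_be]
theorem map_YY2 (g : S →+* T) (c t0 x X1 X2 e : S) :
    g (YY2 c t0 x X1 X2 e) = YY2 (g c) (g t0) (g x) (g X1) (g X2) (g e) := by
  simp [YY2, map_aa, map_uu, map_al]
theorem map_pp (g : S →+* T) (c t0 x X1 X2 e : S) :
    g (pp c t0 x X1 X2 e) = pp (g c) (g t0) (g x) (g X1) (g X2) (g e) := by
  simp [pp, map_YY1]
theorem map_tt (g : S →+* T) (c h t0 x X1 X2 e : S) :
    g (tt c h t0 x X1 X2 e) = tt (g c) (g h) (g t0) (g x) (g X1) (g X2) (g e) := by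
  simp [tt, map_YY1, map_YY2, map_pp, map_gG]
theorem map_oX1 (g : S →+* T) (x X1 t p : S) : g (oX1 x X1 t p) = oX1 (g x) (g X1) (g t) (g p) := by
  simp [oX1]
theorem map_oX2 (g : S →+* T) (x X1 t p : S) : g (oX2 x X1 t p) = oX2 (g x) (g X1) (g t) (g p) := by
  simp [oX2]
theorem map_oy1 (g : S →+* T) (x X1 X2 Y1 t p : S) :
    g (oy1 x X1 X2 Y1 t p) = oy1 (g x) (g X1) (g X2) (g Y1) (g t) (g p) := by
  simp [oy1]
theorem map_oy2 (g : S →+* T) (Y2 t p : S) : g (oy2 Y2 t p) = oy2 (g Y2) (g t) (g p) := by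
  simp [oy2]

theorem map_fA (g : S →+* T) (c h : S) (v : Fin 5 → S) (i : Fin 5) :
    g (fA c h v i) = fA (g c) (g h) (fun j => g (v j)) i := by
  fin_cases i <;>
  simp [fA, map_tt, map_pp, map_YY1, map_YY2, map_oX1, map_oX2, map_oy1, map_oy2,
    NCc.map_sI, NCc.map_mI, NCc.map_lI]

theorem map_bX1 (g : S →+* T) (t z s m l : S) :
    g (bX1 t z s m l) = bX1 (g t) (g z) (g s) (g m) (g l) := by
  simp [bX1, NCc.map_X1f, NCc.map_xf, NCc.map_pf]
theorem map_bX2 (g : S →+* T) (t z s m l : S) :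
    g (bX2 t z s m l) = bX2 (g t) (g z) (g s) (g m) (g l) := by
  simp [bX2, NCc.map_X2f, NCc.map_xf, NCc.map_pf]
theorem map_bY1 (g : S →+* T) (t z s m l : S) :
    g (bY1 t z s m l) = bY1 (g t) (g z) (g s) (g m) (g l) := by
  simp [bY1, NCc.map_X1f, NCc.map_X2f, NCc.map_y1f, NCc.map_xf, NCc.map_pf]
theorem map_bY2 (g : S →+* T) (t z s m l : S) :
    g (bY2 t z s m l) = bY2 (g t) (g z) (g s) (g m) (g l) := by
  simp [bY2, NCc.map_pf]

theorem map_fB (g : S →+* T) (c : S) (v : Fin 5 → S) (i : Fin 5) :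
    g (fB c v i) = fB (g c) (fun j => g (v j)) i := by
  fin_cases i <;>
  simp [fB, map_gG, map_bX1, map_bX2, map_bY1, map_bY2, map_aa, map_bb, NCc.map_xf, NCc.map_pf,
    map_ofNat]

end maps

abbrev M5 := MvPolynomial (Fin 5) ℂ

noncomputable def cc : M5 := C (1 / 4)
noncomputable def hh : M5 := C (1 / 2)

theorem cc4 : 4 * cc = 1 := by
  have h : (4 : M5) = C 4 := by simp [map_ofNat]
  rw [h, cc, ← C_mul]; norm_num
theorem hh2 : 2 * hh = 1 := by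
  have h : (2 : M5) = C 2 := by simp [map_ofNat]
  rw [h, hh, ← C_mul]; norm_num

noncomputable def FA : M5 →ₐ[ℂ] M5 := aeval (fA cc hh X)
noncomputable def FB : M5 →ₐ[ℂ] M5 := aeval (fB cc X)

theorem FA_X (i : Fin 5) : FA (X i) = fA cc hh X i := by simp [FA]
theorem FB_X (i : Fin 5) : FB (X i) = fB cc X i := by simp [FB]

theorem FA_c (g : M5 →ₐ[ℂ] M5) : g cc = cc := by
  rw [cc]; simp only [← MvPolynomial.algebraMap_eq, AlgHom.commutes]
theorem FA_h (g : M5 →ₐ[ℂ] M5) : g hh = hh := by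
  rw [hh]; simp only [← MvPolynomial.algebraMap_eq, AlgHom.commutes]

theorem FB_FA : FB.comp FA = AlgHom.id ℂ M5 := by
  apply MvPolynomial.algHom_ext
  intro i
  rw [AlgHom.comp_apply, FA_X, AlgHom.id_apply]
  have h := map_fA (FB : M5 →+* M5) cc hh X i
  simp only [RingHom.coe_coe] at h
  rw [h, FA_c, FA_h]
  have h2 : (fun j => FB (X j)) = fB cc X := by funext j; exact FB_X j
  rw [h2, fA_fB _ _ cc4 hh2]

theorem FA_FB : FA.comp FB = AlgHom.id ℂ M5 := by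
  apply MvPolynomial.algHom_ext
  intro i
  rw [AlgHom.comp_apply, FB_X, AlgHom.id_apply]
  have h := map_fB (FA : M5 →+* M5) cc X i
  simp only [RingHom.coe_coe] at h
  rw [h, FA_c]
  have h2 : (fun j => FA (X j)) = fA cc hh X := by funext j; exact FA_X j
  rw [h2, fB_fA _ _ cc4 hh2]

noncomputable def Eq5 : M5 ≃ₐ[ℂ] M5 := AlgEquiv.ofAlgHom FA FB FA_FB FB_FA

theorem Eq5_x : Eq5 (xf (X 1) (X 2) (X 3) (X 4)) = X 1 := by
  change FA (xf (X 1) (X 2) (X 3) (X 4)) = X 1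
  have h : xf (X 1 : M5) (X 2) (X 3) (X 4) = fB cc X 1 := rfl
  rw [h, ← FB_X]
  have := DFunLike.congr_fun FA_FB (X 1)
  simpa using this

/-- `f` is a 1-stable coordinate. -/
theorem stab62 :
    ∃ σ : Polynomial W ≃ₐ[ℂ] Polynomial W, σ (Polynomial.C ff) = Polynomial.C (X 0) := by
  refine ⟨((MvPolynomial.finSuccEquiv ℂ 4).symm.trans Eq5).trans (MvPolynomial.finSuccEquiv ℂ 4), ?_⟩
  have h1 : (MvPolynomial.finSuccEquiv ℂ 4) (xf (X 1) (X 2) (X 3) (X 4)) = Polynomial.C ff := by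
    have h := NCc.map_xf ((MvPolynomial.finSuccEquiv ℂ 4 : M5 ≃ₐ[ℂ] Polynomial W) : M5 →+* Polynomial W)
      (X 1) (X 2) (X 3) (X 4)
    have e1 : (MvPolynomial.finSuccEquiv ℂ 4) (X 1) = Polynomial.C (X 0) :=
      MvPolynomial.finSuccEquiv_X_succ (j := 0)
    have e2 : (MvPolynomial.finSuccEquiv ℂ 4) (X 2) = Polynomial.C (X 1) :=
      MvPolynomial.finSuccEquiv_X_succ (j := 1)
    have e3 : (MvPolynomial.finSuccEquiv ℂ 4) (X 3) = Polynomial.C (X 2) :=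
      MvPolynomial.finSuccEquiv_X_succ (j := 2)
    have e4 : (MvPolynomial.finSuccEquiv ℂ 4) (X 4) = Polynomial.C (X 3) :=
      MvPolynomial.finSuccEquiv_X_succ (j := 3)
    have h' : (MvPolynomial.finSuccEquiv ℂ 4) (xf (X 1) (X 2) (X 3) (X 4)) =
      xf ((MvPolynomial.finSuccEquiv ℂ 4) (X 1)) ((MvPolynomial.finSuccEquiv ℂ 4) (X 2))
        ((MvPolynomial.finSuccEquiv ℂ 4) (X 3)) ((MvPolynomial.finSuccEquiv ℂ 4) (X 4)) := h
    rw [h', e1, e2, e3, e4, ff]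
    exact (NCc.map_xf (Polynomial.C : W →+* Polynomial W) (X 0) (X 1) (X 2) (X 3)).symm
  have h2 : (MvPolynomial.finSuccEquiv ℂ 4).symm (Polynomial.C ff) = xf (X 1) (X 2) (X 3) (X 4) := by
    rw [← h1, AlgEquiv.symm_apply_apply]
  rw [AlgEquiv.trans_apply, AlgEquiv.trans_apply, h2, Eq5_x]
  exact MvPolynomial.finSuccEquiv_X_succ (j := 0)

end Stab62
end Crest.Agent.DW
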