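import Crest.Agent.DW.Defs
import Crest.Agent.DW.Stab62
set_option autoImplicit false
namespace Crest.Agent.DW
open MvPolynomial

/-- f is a 1-stable coordinate (explicit automorphism, see `DW/Stab62.lean`). -/
theorem stab : ∃ σ : Polynomial W ≃ₐ[ℂ] Polynomial W, σ (Polynomial.C ff) = Polynomial.C (X 0) :=
  Stab62.stab62

end Crest.Agent.DW
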